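import Vale.Agent.P309.Key

namespace Vale.Agent.P309

open MeasureTheory ProbabilityTheory Set Metric
open scoped ENNReal RealInnerProductSpace NNReal

variable {d : ℕ} {ι : Type} [Fintype ι]

theorem two_inv : (2 : ℝ≥0∞) * 2⁻¹ = 1 := ENNReal.mul_inv_cancel (by norm_num) (by norm_num)

theorem two_pow_inv (n : ℕ) : (2 : ℝ≥0∞) ^ n * 2⁻¹ ^ n = 1 := by rw [← mul_pow, two_inv, one_pow]

theorem heavy_mass (hd : 1 ≤ d) {k m β g : ℕ} (hk : Fintype.card ι ≤ k) (hβ : m + 2 * k + 1 ≤ β)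
    (hm : m ≤ d) (μ : Measure (Ed d)) [IsFiniteMeasure μ] (h0 : μ univ ≠ 0) (j : ℕ) (z : Fin d → ℤ)
    (hQ : μ (cell j z)ᶜ = 0)
    (hφ : ∀ i z', μ (cell (j + i) z') ≤ 2 ^ (2 * k) * μ univ * 2⁻¹ ^ (β * i))
    (G : Set (Ed d)) (hG : 2 ^ (2 * (5 * d + 15 * k + 2 + g)) * μ G ≤ μ univ)
    (W : Set ((ι → Ed d) × (ι → ℝ))) :
    ∫⁻ s in G, sl W s ∂μ ≤ μ univ * (2 ^ (j * Fintype.card ι) * 2⁻¹ ^ (10 * k)) * nu ι d W +
      2⁻¹ ^ ((g + k) * m) * μ univ := by
  set a := Fintype.card ι with ha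
  set x := 5 * d + 15 * k + 2 + g with hx
  set T := μ univ with hT
  have hT1 : T ≠ ⊤ := measure_ne_top _ _
  have hG' : μ G ≤ T * 2⁻¹ ^ (2 * x) := by
    calc μ G = 2 ^ (2 * x) * μ G * 2⁻¹ ^ (2 * x) := by
          rw [mul_right_comm, two_pow_inv, one_mul]
      _ ≤ _ := by gcongr
  have hH : ∀ c ∈ cell j z, ∀ V : Submodule ℝ (Ed d), Module.finrank ℝ V ≤ m →
      ∫⁻ s, (ENNReal.ofReal (dsub V (s - c)))⁻¹ ^ a ∂(μ.restrict G) ≤
        T * (2 ^ (j * a) * 2⁻¹ ^ (10 * k)) * 2⁻¹ ^ (g + k) := by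
    intro c hc V hV
    have h1 := frost_int hd μ j z hQ _ β m (2 * a) (by omega) hm hφ c hc V hV
    have hmd : Measurable fun s : Ed d => (ENNReal.ofReal (dsub V (s - c)))⁻¹ ^ (2 * a) :=
      ((((continuous_dsub V).comp (continuous_id.sub continuous_const)).measurable).ennreal_ofReal.inv).pow_const _
    calc _ ≤ ∫⁻ s, ((2 : ℝ≥0∞) ^ (x + j * a) + 2⁻¹ ^ (x + j * a) *
          (ENNReal.ofReal (dsub V (s - c)))⁻¹ ^ (2 * a)) ∂(μ.restrict G) := by
          apply lintegral_mono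
          intro s
          have := le_thresh ((ENNReal.ofReal (dsub V (s - c)))⁻¹ ^ a) (2 ^ (x + j * a))
            (by simp) (by simp) 1
          simp only [pow_one, ← pow_add, ← two_mul, ENNReal.inv_pow] at this
          exact this
      _ = 2 ^ (x + j * a) * μ G + 2⁻¹ ^ (x + j * a) *
          ∫⁻ s, (ENNReal.ofReal (dsub V (s - c)))⁻¹ ^ (2 * a) ∂(μ.restrict G) := by
          rw [lintegral_add_left measurable_const, lintegral_const, lintegral_const_mul _ hmd,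
            Measure.restrict_apply_univ]
      _ ≤ 2 ^ (x + j * a) * (T * 2⁻¹ ^ (2 * x)) + 2⁻¹ ^ (x + j * a) *
          (2 ^ (2 * k) * T * 2 ^ (5 * d + (j + 1) * (2 * a) + 1)) := by
          gcongr
          exact (lintegral_mono' Measure.restrict_le_self le_rfl).trans h1
      _ = T * 2 ^ (j * a) * 2⁻¹ ^ x * ((2 * 2⁻¹) ^ x * 1 +
            (2 * 2⁻¹) ^ (j * a) * 2 ^ (5 * d + 2 * k + 2 * a + 1)) := by
          rw [mul_pow, mul_pow]; ring
      _ ≤ T * 2 ^ (j * a) * 2⁻¹ ^ x * (2 ^ (5 * d + 4 * k + 1) + 2 ^ (5 * d + 4 * k + 1)) := by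
          rw [two_inv, one_pow, one_pow, one_mul, one_mul]
          refine mul_le_mul_right (add_le_add (one_le_pow₀ (by norm_num)) ?_) _
          exact pow_le_pow_right₀ (by norm_num) (by omega)
      _ = T * (2 ^ (j * a) * 2⁻¹ ^ (10 * k)) * 2⁻¹ ^ (g + k) * (2 * 2⁻¹) ^ (5 * d + 4 * k + 2) := by
          rw [mul_pow, hx]; ring
      _ = _ := by rw [two_inv, one_pow, mul_one]
  have hτ0 : T * (2 ^ (j * a) * 2⁻¹ ^ (10 * k)) ≠ 0 := by simp [h0]
  have hτ1 : T * (2 ^ (j * a) * 2⁻¹ ^ (10 * k)) ≠ ⊤ := by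
    apply ENNReal.mul_ne_top hT1 (ENNReal.mul_ne_top (by simp) (by simp))
  have hQ' : (μ.restrict G) (cell j z)ᶜ = 0 :=
    le_antisymm ((Measure.restrict_le_self _).trans hQ.le) zero_le
  refine (key_meas (μ.restrict G) _ hQ' m _ hH _ hτ0 hτ1 W).trans ?_
  refine add_le_add le_rfl ?_
  rw [← mul_assoc, ← mul_pow, ← mul_assoc, ENNReal.inv_mul_cancel hτ0 hτ1, one_mul, ← pow_mul]
  exact mul_le_mul_right (Measure.restrict_le_self _) _

def region (k j : ℕ) (c : Ed d) : Set ((ι → Ed d) × (ι → ℝ)) :=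
  {p | ∑ l, |p.2 l - ⟪p.1 l, c⟫| ≤ 3 * k * (1 / 2) ^ j}

theorem measurableSet_region (k j : ℕ) (c : Ed d) : MeasurableSet (region (ι := ι) k j c) :=
  measurableSet_le (f := fun p : (ι → Ed d) × (ι → ℝ) => ∑ l, |p.2 l - ⟪p.1 l, c⟫|)
    (by fun_prop) measurable_const

theorem nu_region [Nonempty ι] (k j : ℕ) (c : Ed d) :
    2 ^ (j * Fintype.card ι) * nu ι d (region k j c) ≤ 2 ^ (9 * k) := by
  rw [Measure.prod_apply (measurableSet_region k j c)]
  have : ∀ X : ι → Ed d, volume (Prod.mk X ⁻¹' region k j c) =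
      ENNReal.ofReal ((2 * (3 * k * (1 / 2) ^ j)) ^ Fintype.card ι / (Fintype.card ι).factorial) := by
    intro X
    rw [← vol_l1 _ (by positivity), ← measure_preimage_add_right volume (lab X c)]
    congr 1
    ext y
    simp [region, lab]
  simp only [this, lintegral_const, measure_univ, mul_one]
  rw [← ENNReal.ofReal_ofNat 2, ← ENNReal.ofReal_pow (by norm_num),
    ← ENNReal.ofReal_pow (by norm_num), ← ENNReal.ofReal_mul (by positivity)]
  apply ENNReal.ofReal_le_ofReal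
  have h1 := Real.pow_div_factorial_le_exp (x := 6 * k) (by positivity) (Fintype.card ι)
  have h2 : Real.exp (6 * k) ≤ 2 ^ (9 * k) := by
    rw [mul_comm, Real.exp_nat_mul, pow_mul]
    gcongr
    have : Real.exp 6 = Real.exp 1 ^ 6 := by rw [← Real.exp_nat_mul]; norm_num
    rw [this]
    calc Real.exp 1 ^ 6 ≤ 2.72 ^ 6 := by gcongr; linarith [Real.exp_one_lt_d9]
      _ ≤ _ := by norm_num
  refine le_trans (le_of_eq ?_) (h1.trans h2)
  rw [pow_mul, ← mul_div_assoc, ← mul_pow]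
  congr 2
  rw [one_div, inv_pow]
  field_simp
  ring

theorem child_bound (μ : Measure (Ed d)) [IsFiniteMeasure μ] (h0 : μ univ ≠ 0) (Q : Set (Ed d))
    (hQ : μ Qᶜ = 0) (α y k : ℕ) (hden : μ ≤ (2 ^ α * μ univ) • sig d) (f F : Ed d → ℝ≥0∞)
    (hf : Measurable f) (hf1 : ∀ s, f s ≤ 1) (hF : Measurable F) (hF1 : ∀ s, F s ≤ 1) (b B : ℝ≥0∞)
    (hb : ∀ (μ' : Measure (Ed d)) [IsFiniteMeasure μ'], μ' Qᶜ = 0 →
      μ' ≤ (2 ^ (α + y + k) * μ' univ) • sig d → ∫⁻ s, F s ∂μ' ≤ b * μ' univ)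
    (hB : ∀ G : Set (Ed d), 2 ^ y * μ G ≤ μ univ → ∫⁻ s in G, f s ∂μ ≤ B) :
    ∫⁻ s, f s * F s ∂μ ≤ (b + 2⁻¹ ^ k) * ∫⁻ s, f s ∂μ + B := by
  set p := ∫⁻ s, f s ∂μ with hp
  set T := μ univ with hT
  have hT1 : T ≠ ⊤ := measure_ne_top _ _
  have hp1 : p ≠ ⊤ := by
    refine ne_top_of_le_ne_top hT1 ?_
    calc p ≤ ∫⁻ _s, 1 ∂μ := lintegral_mono hf1
      _ = T := by simp [hT]
  have hfF : ∀ s, f s * F s ≤ f s := fun s => mul_le_of_le_one_right' (hF1 s)
  by_cases hp0 : p = 0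
  · exact ((lintegral_mono hfF).trans (le_of_eq hp0)).trans zero_le
  set G := {s | 2 ^ y * p < T * f s} with hGd
  have hGm : MeasurableSet G := measurableSet_lt measurable_const (hf.const_mul T)
  have hG : 2 ^ y * μ G ≤ T := by
    have h1 := mul_meas_ge_le_lintegral (μ := μ) (hf.const_mul T) (2 ^ y * p)
    rw [lintegral_const_mul _ hf] at h1
    have h2 : 2 ^ y * μ G * p ≤ T * p := by
      rw [mul_right_comm]
      refine le_trans ?_ h1
      gcongr
      intro s hs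
      exact le_of_lt (show 2 ^ y * p < T * f s from hs)
    exact (ENNReal.mul_le_mul_iff_left hp0 hp1).1 h2
  rw [← lintegral_add_compl _ hGm, add_comm]
  refine add_le_add ?_ ((lintegral_mono hfF).trans (hB G hG))
  set μ' := (μ.restrict Gᶜ).withDensity f with hμ'
  have hu : μ' univ ≤ p := by
    rw [hμ', withDensity_apply _ MeasurableSet.univ, Measure.restrict_univ]
    exact lintegral_mono' Measure.restrict_le_self le_rfl
  haveI : IsFiniteMeasure μ' := ⟨lt_of_le_of_lt hu hp1.lt_top⟩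
  have e : ∫⁻ s in Gᶜ, f s * F s ∂μ = ∫⁻ s, F s ∂μ' := by
    rw [hμ', lintegral_withDensity_eq_lintegral_mul _ hf hF]
    rfl
  rw [e]
  by_cases hc : 2⁻¹ ^ k * p ≤ μ' univ
  · refine (hb μ' ?_ ?_).trans ?_
    · exact withDensity_absolutelyContinuous _ _
        (le_antisymm ((Measure.restrict_le_self _).trans hQ.le) zero_le)
    · rw [Measure.le_iff]
      intro A hA
      have h1 : T * μ' A ≤ 2 ^ y * p * μ A := by
        rw [hμ', withDensity_apply _ hA, Measure.restrict_restrict hA, ← lintegral_const_mul _ hf]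
        calc _ ≤ ∫⁻ _s in A ∩ Gᶜ, 2 ^ y * p ∂μ :=
              setLIntegral_mono' (hA.inter hGm.compl) fun s hs => not_lt.1 hs.2
          _ = 2 ^ y * p * μ (A ∩ Gᶜ) := setLIntegral_const _ _
          _ ≤ _ := by gcongr; exact inter_subset_left
      have h2 := hden A
      simp only [Measure.smul_apply, smul_eq_mul] at h2 ⊢
      have h3 : p ≤ 2 ^ k * μ' univ := by
        calc p = 2 ^ k * (2⁻¹ ^ k * p) := by rw [← mul_assoc, two_pow_inv, one_mul]
          _ ≤ _ := by gcongr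
      have h4 : T * μ' A ≤ T * (2 ^ (α + y + k) * μ' univ * sig d A) := by
        calc _ ≤ 2 ^ y * (2 ^ k * μ' univ) * (2 ^ α * T * sig d A) := h1.trans (by gcongr)
          _ = _ := by ring
      exact (ENNReal.mul_le_mul_iff_right h0 hT1).1 h4
    · gcongr
      exact le_self_add
  · calc ∫⁻ s, F s ∂μ' ≤ ∫⁻ _s, 1 ∂μ' := lintegral_mono hF1
      _ = μ' univ := by simp
      _ ≤ 2⁻¹ ^ k * p := (not_le.1 hc).le
      _ ≤ _ := by gcongr; exact le_add_self

theorem block [Nonempty ι] (hd : 1 ≤ d) {k m β g : ℕ} (hk : Fintype.card ι ≤ k)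
    (hβ : m + 2 * k + 1 ≤ β) (hm : m ≤ d) (hm1 : 1 ≤ m) (μ : Measure (Ed d)) [IsFiniteMeasure μ]
    (h0 : μ univ ≠ 0) (j : ℕ) (z : Fin d → ℤ) (hQ : μ (cell j z)ᶜ = 0)
    (hφ : ∀ i z', μ (cell (j + i) z') ≤ 2 ^ (2 * k) * μ univ * 2⁻¹ ^ (β * i))
    (α : ℕ) (hden : μ ≤ (2 ^ α * μ univ) • sig d)
    {κ : Type} [MeasurableSpace κ] [MeasurableSingletonClass κ] (S : Finset κ)
    (hS : S.card ≤ 2 ^ (g * m)) (φ : (ι → Ed d) × (ι → ℝ) → κ) (hφm : Measurable φ)
    (hφS : ∀ p, φ p ∈ S) (F : κ → Ed d → ℝ≥0∞) (hF : ∀ w ∈ S, Measurable (F w))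
    (hF1 : ∀ w ∈ S, ∀ s, F w s ≤ 1) (b : ℝ≥0∞)
    (hb : ∀ w ∈ S, ∀ (μ' : Measure (Ed d)) [IsFiniteMeasure μ'], μ' (cell j z)ᶜ = 0 →
      μ' ≤ (2 ^ (α + 2 * (5 * d + 15 * k + 2 + g) + k) * μ' univ) • sig d →
      ∫⁻ s, F w s ∂μ' ≤ b * μ' univ) :
    ∫⁻ s, (∫⁻ X, F (φ (X, lab X s)) s ∂Gm ι d) ∂μ ≤ (b + 4 * 2⁻¹ ^ k) * μ univ := by
  have hne : (cell j z).Nonempty := by
    by_contra h
    rw [not_nonempty_iff_eq_empty] at h
    rw [h, compl_empty] at hQ
    exact h0 hQ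
  obtain ⟨c, hc⟩ := hne
  let W : κ → Set ((ι → Ed d) × (ι → ℝ)) := fun w => φ ⁻¹' {w} ∩ region k j c
  have hW : ∀ w, MeasurableSet (W w) := fun w =>
    (hφm (measurableSet_singleton w)).inter (measurableSet_region k j c)
  have hdis : (S : Set κ).PairwiseDisjoint W := fun a _ b _ hab =>
    (Disjoint.preimage φ (disjoint_singleton.2 hab)).mono inter_subset_left inter_subset_left
  have hsl : ∀ s, Measurable fun X : ι → Ed d => (X, lab X s) := fun s =>
    measurable_pair.comp (measurable_prodMk_left (x := s))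
  have hsl' : ∀ s w, MeasurableSet {X : ι → Ed d | (X, lab X s) ∈ W w} := fun s w => hsl s (hW w)
  have hpt : ∀ᵐ s ∂μ, (∫⁻ X, F (φ (X, lab X s)) s ∂Gm ι d) ≤
      ∑ w ∈ S, sl (W w) s * F w s + 2⁻¹ ^ k := by
    have : ∀ᵐ s ∂μ, s ∈ cell j z := hQ
    filter_upwards [this] with s hs
    have h1 := tail_bound hk (s - c) ((1 / 2) ^ j) (by positivity)
      (cell_diam hd (hs.trans hc.symm))
    have hbad : MeasurableSet {X : ι → Ed d | 3 * k * (1 / 2 : ℝ) ^ j < ∑ l, |⟪X l, s - c⟫|} :=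
      measurableSet_lt measurable_const (by fun_prop)
    calc _ ≤ ∫⁻ X, (∑ w ∈ S, {X | (X, lab X s) ∈ W w}.indicator (fun _ => F w s) X +
          {X : ι → Ed d | 3 * k * (1 / 2 : ℝ) ^ j < ∑ l, |⟪X l, s - c⟫|}.indicator 1 X) ∂Gm ι d := by
          apply lintegral_mono
          intro X
          by_cases hX : X ∈ {X : ι → Ed d | 3 * k * (1 / 2 : ℝ) ^ j < ∑ l, |⟪X l, s - c⟫|}
          · simp only [indicator_of_mem hX]
            exact (hF1 _ (hφS _) s).trans le_add_self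
          · refine le_trans ?_ le_self_add
            refine le_trans ?_ (Finset.single_le_sum (fun _ _ => zero_le) (hφS (X, lab X s)))
            rw [indicator_of_mem]
            refine ⟨rfl, ?_⟩
            simp only [mem_setOf_eq, not_lt, inner_sub_right] at hX
            exact hX
      _ = ∑ w ∈ S, sl (W w) s * F w s + Gm ι d
          {X : ι → Ed d | 3 * k * (1 / 2 : ℝ) ^ j < ∑ l, |⟪X l, s - c⟫|} := by
          rw [lintegral_add_right _ (measurable_one.indicator hbad), lintegral_indicator_one hbad,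
            lintegral_finset_sum _ fun w _ => measurable_const.indicator (hsl' s w)]
          congr 1
          apply Finset.sum_congr rfl
          intro w _
          rw [mul_comm]
          exact lintegral_indicator_const (hsl s (hW w)) _
      _ ≤ _ := by gcongr
  refine (lintegral_mono_ae hpt).trans ?_
  rw [lintegral_add_right _ measurable_const, lintegral_const,
    lintegral_finset_sum _ fun w hw => (measurable_sl (hW w)).fun_mul (hF w hw)]
  have h1 : ∀ w ∈ S, ∫⁻ s, sl (W w) s * F w s ∂μ ≤ (b + 2⁻¹ ^ k) * ∫⁻ s, sl (W w) s ∂μ +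
      (μ univ * (2 ^ (j * Fintype.card ι) * 2⁻¹ ^ (10 * k)) * nu ι d (W w) +
        2⁻¹ ^ ((g + k) * m) * μ univ) := fun w hw =>
    child_bound μ h0 _ hQ α _ k hden _ _ (measurable_sl (hW w)) (fun _ => prob_le_one) (hF w hw)
      (hF1 w hw) b _ (hb w hw) fun G hG => heavy_mass hd hk hβ hm μ h0 j z hQ hφ G hG (W w)
  have h2 : ∑ w ∈ S, ∫⁻ s, sl (W w) s ∂μ ≤ μ univ := by
    rw [← lintegral_finset_sum _ fun w _ => measurable_sl (hW w)]
    calc _ ≤ ∫⁻ _s, 1 ∂μ := by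
          apply lintegral_mono
          intro s
          unfold sl
          simp only
          rw [← measure_biUnion_finset (f := fun w => {X | (X, lab X s) ∈ W w})
            (fun a ha b hb hab => (hdis ha hb hab).preimage fun X : ι → Ed d => (X, lab X s))
            fun w _ => hsl s (hW w)]
          exact prob_le_one
      _ = _ := by simp
  have h3 : ∑ w ∈ S, nu ι d (W w) ≤ nu ι d (region k j c) := by
    rw [← measure_biUnion_finset hdis fun w _ => hW w]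
    apply measure_mono
    simp only [iUnion_subset_iff]
    exact fun w _ => inter_subset_right
  have h4 : (2 ^ (j * Fintype.card ι) * 2⁻¹ ^ (10 * k)) * nu ι d (region k j c) ≤ 2⁻¹ ^ k := by
    calc _ = 2⁻¹ ^ (10 * k) * (2 ^ (j * Fintype.card ι) * nu ι d (region k j c)) := by ring
      _ ≤ 2⁻¹ ^ (10 * k) * 2 ^ (9 * k) := by gcongr; exact nu_region k j c
      _ = 2⁻¹ ^ k * (2 * 2⁻¹) ^ (9 * k) := by rw [mul_pow]; ring
      _ = _ := by rw [two_inv, one_pow, mul_one]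
  have h5 : (S.card : ℝ≥0∞) * 2⁻¹ ^ ((g + k) * m) ≤ 2⁻¹ ^ k := by
    have : (S.card : ℝ≥0∞) ≤ 2 ^ (g * m) := by exact_mod_cast hS
    calc _ ≤ (2 : ℝ≥0∞) ^ (g * m) * 2⁻¹ ^ ((g + k) * m) := by gcongr
      _ = 2⁻¹ ^ (k * m) := by rw [add_mul, pow_add, ← mul_assoc, two_pow_inv, one_mul]
      _ ≤ _ := pow_le_pow_of_le_one zero_le (by norm_num) (Nat.le_mul_of_pos_right _ hm1)
  refine (add_le_add_left (Finset.sum_le_sum h1) _).trans ?_
  rw [Finset.sum_add_distrib, Finset.sum_add_distrib, ← Finset.mul_sum, ← Finset.mul_sum,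
    Finset.sum_const, nsmul_eq_mul]
  calc _ ≤ (b + 2⁻¹ ^ k) * μ univ + (μ univ * 2⁻¹ ^ k + 2⁻¹ ^ k * μ univ) + 2⁻¹ ^ k * μ univ := by
        refine add_le_add (add_le_add (mul_le_mul_right h2 _) (add_le_add ?_ ?_)) le_rfl
        · rw [mul_assoc]
          exact mul_le_mul_right ((mul_le_mul_right h3 _).trans h4) _
        · rw [← mul_assoc]; gcongr
    _ = _ := by ring

end Vale.Agent.P309
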