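import Mathlib

namespace Vale.Agent.P309

open MeasureTheory ProbabilityTheory
open scoped ENNReal RealInnerProductSpace

/-- A learner in dimension `d` with `N` memory states. All its randomness is drawn from a seed
in `Ω`. The Boolean component is the decision to stop. The rules may depend on the index. -/
structure Learner (d N : ℕ) (Ω : Type) [MeasurableSpace Ω] : Type where
  init : Ω → Fin N × Bool
  step : ℕ → Fin N → Ω × EuclideanSpace ℝ (Fin d) × ℝ → Fin N × Bool
  out : ℕ → Fin N → Ω → Metric.sphere (0 : EuclideanSpace ℝ (Fin d)) 1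
  init_meas : Measurable init
  step_meas : ∀ t w, Measurable (step t w)
  out_meas : ∀ t w, Measurable (out t w)

/-- Configuration (state, number of samples read, stopped) after `n` rounds, for seed `ω`,
signal `s` and rows `x`; the labels are the exact inner products. -/
noncomputable def Learner.run {d N : ℕ} {Ω : Type} [MeasurableSpace Ω] (L : Learner d N Ω) (ω : Ω)
    (s : EuclideanSpace ℝ (Fin d)) (x : ℕ → EuclideanSpace ℝ (Fin d)) : ℕ → Fin N × ℕ × Bool
  | 0 => ((L.init ω).1, 0, (L.init ω).2)
  | n + 1 =>
      if (L.run ω s x n).2.2 = true then L.run ω s x n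
      else ((L.step n (L.run ω s x n).1 (ω, x n, ⟪x n, s⟫)).1, n + 1,
        (L.step n (L.run ω s x n).1 (ω, x n, ⟪x n, s⟫)).2)

/-- The uniform probability measure on the unit sphere. -/
noncomputable def unifSphere (d : ℕ) : Measure (Metric.sphere (0 : EuclideanSpace ℝ (Fin d)) 1) :=
  ((volume : Measure (EuclideanSpace ℝ (Fin d))).toSphere Set.univ)⁻¹ •
    (volume : Measure (EuclideanSpace ℝ (Fin d))).toSphere

/-- Probability that the output after horizon `T` is within angle `ε` of the signal; seed,
signal and rows are independent. -/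
noncomputable def Learner.success {d N : ℕ} {Ω : Type} [MeasurableSpace Ω] (L : Learner d N Ω)
    (P : Measure Ω) (T : ℕ) (ε : ℝ) : ℝ≥0∞ :=
  (P.prod ((unifSphere d).prod
    (Measure.infinitePi fun _ : ℕ => stdGaussian (EuclideanSpace ℝ (Fin d)))))
    {q | Real.arccos ⟪(L.out (L.run q.1 q.2.1 q.2.2 T).2.1 (L.run q.1 q.2.1 q.2.2 T).1 q.1 :
      EuclideanSpace ℝ (Fin d)), (q.2.1 : EuclideanSpace ℝ (Fin d))⟫ ≤ ε}

end Vale.Agent.P309
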