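import Vale.Agent.P309.Learn

namespace Vale.Agent.P309

open MeasureTheory ProbabilityTheory Set Metric Filter
open scoped ENNReal

theorem sq_le_two_pow (c : ℕ) : ∃ k0 : ℕ, ∀ k ≥ k0, c * k ^ 2 ≤ 2 ^ k := by
  have h := tendsto_pow_const_div_const_pow_of_one_lt 3 (r := (2 : ℝ)) (by norm_num)
  have h2 := (h.eventually (gt_mem_nhds (show (0 : ℝ) < 1 by norm_num)))
  obtain ⟨b0, hb0⟩ := eventually_atTop.1 h2
  refine ⟨max b0 c, fun b hb => ?_⟩
  have := hb0 b (le_trans (le_max_left _ _) hb)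
  rw [div_lt_one (by positivity)] at this
  have h3 : b ^ 3 ≤ 2 ^ b := by exact_mod_cast this.le
  calc c * b ^ 2 ≤ b * b ^ 2 := by gcongr; exact le_trans (le_max_right _ _) hb
    _ = b ^ 3 := by ring
    _ ≤ _ := h3

theorem eps_pow {ε l : ℝ} (hε : 0 < ε) (hl : l = Real.log (1 / ε)) (n : ℕ) :
    (8 * ε) ^ n ≤ Real.exp (n * (3 - l)) := by
  rw [Real.exp_nat_mul]
  gcongr
  rw [Real.exp_sub, hl, Real.exp_log (by positivity), div_div_eq_mul_div, div_one]
  gcongr
  have : Real.exp 3 = Real.exp 1 ^ 3 := by rw [← Real.exp_nat_mul]; norm_num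
  rw [this]
  calc (8 : ℝ) = 2 ^ 3 := by norm_num
    _ ≤ _ := by gcongr; linarith [Real.exp_one_gt_d9]

theorem two_pow_le_exp (n : ℕ) : (2 : ℝ) ^ n ≤ Real.exp n := by
  rw [← mul_one (n : ℝ), Real.exp_nat_mul]
  gcongr
  linarith [Real.exp_one_gt_d9]

theorem exp_neg_two : Real.exp (-2) ≤ 1 / 4 := by
  rw [Real.exp_neg, inv_le_comm₀ (Real.exp_pos _) (by norm_num)]
  have : Real.exp 2 = Real.exp 1 ^ 2 := by rw [← Real.exp_nat_mul]; norm_num
  rw [this]
  nlinarith [Real.exp_one_gt_d9]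

theorem lt_two_thirds {x : ℝ} (hx : x ≤ 7 / 12) : ENNReal.ofReal x < 2 / 3 := by
  have : (2 / 3 : ℝ≥0∞) = ENNReal.ofReal (2 / 3) := by
    rw [ENNReal.ofReal_div_of_pos (by norm_num)]; simp
  rw [this, ENNReal.ofReal_lt_ofReal_iff (by norm_num)]
  linarith

set_option maxHeartbeats 1600000 in
theorem final (A : ℕ) : ∃ c' : ℝ, 0 < c' ∧ ∃ ε0 : ℝ, 0 < ε0 ∧ ∃ d0 : ℕ, ∀ d ≥ d0, ∀ ε : ℝ,
    0 < ε → ε < ε0 → ∀ M N T : ℕ, M ≤ A * d ^ 2 → N ≤ 2 ^ M →
    ∀ (Ω : Type) [MeasurableSpace Ω] (P : Measure Ω) [IsProbabilityMeasure P] (L : Learner d N Ω),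
      2 / 3 ≤ L.success P T ε → c' * d * Real.log (1 / ε) ≤ T := by
  obtain ⟨C, hC⟩ : ∃ C : ℕ, C = 32 * A + 48 := ⟨_, rfl⟩
  have hC0 : (0 : ℝ) < C := by rw [hC]; positivity
  obtain ⟨k0, hk0⟩ := sq_le_two_pow (512 * (C + 10) + 600)
  refine ⟨1 / (128 * C), by positivity, Real.exp (-(72 + 8 * C)), Real.exp_pos _, 8 * k0 + 32,
    fun d hd ε hε hε0 M N T hM hN Ω _ P _ L hs => ?_⟩
  by_contra hT
  push Not at hT
  set l := Real.log (1 / ε) with hl
  have hCr : (C : ℝ) = 32 * A + 48 := by rw [hC]; push_cast; ring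
  have hA0 : (0 : ℝ) ≤ A := Nat.cast_nonneg A
  have hl0 : 72 + 8 * (C : ℝ) ≤ l := by
    rw [hl, Real.le_log_iff_exp_le (by positivity), le_div_iff₀ hε]
    calc _ ≤ Real.exp (72 + 8 * C) * Real.exp (-(72 + 8 * C)) := by gcongr
      _ = 1 := by rw [← Real.exp_add]; simp
  have hd32 : (32 : ℝ) ≤ d := by exact_mod_cast (by omega : 32 ≤ d)
  have hd1 : ((d - 1 : ℕ) : ℝ) = d - 1 := by rw [Nat.cast_sub (by omega)]; simp
  have hT' : (T : ℝ) * (128 * C) < d * l := by
    rw [← lt_div_iff₀ (by positivity)]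
    convert hT using 1
    ring
  have hc0 : ∀ ω, (((L.init ω).1, 0, (L.init ω).2) : Cfg N) ∈ cfgs N T := fun ω =>
    mem_cfgs.2 (Nat.zero_le _)
  have hp := eps_pow hε hl (d - 1)
  rw [hd1] at hp
  rcases le_total l (4 * (A + 2) * d) with hcase | hcase
  · set k := d / 8 with hk
    have hk1 : 1 ≤ k := by omega
    have hdk : d ≤ 16 * k := by omega
    have hbig := hk0 k (by omega)
    have hT2 : T * 16 ≤ d * d := by
      have : (T : ℝ) * 16 ≤ d * d := by
        have h1 : (d : ℝ) * l ≤ d * (4 * (A + 2) * d) := by gcongr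
        have h2 : (T : ℝ) * 16 * (4 * (A + 2)) ≤ T * (128 * C) := by
          rw [mul_assoc]
          exact mul_le_mul_of_nonneg_left (by linarith) (Nat.cast_nonneg T)
        have h3 : (T : ℝ) * 16 * (4 * (A + 2)) ≤ d * d * (4 * (A + 2)) := by nlinarith
        exact le_of_mul_le_mul_right h3 (by positivity)
      exact_mod_cast this
    have hT3 : T ≤ d * k := by nlinarith
    set t := T / k + 1 with ht
    have ht1 : T ≤ t * k := by
      have := Nat.lt_div_mul_add (a := T) hk1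
      rw [ht, add_mul]; omega
    have ht2 : t ≤ d + 1 := by
      have : T / k ≤ d := Nat.div_le_of_le_mul (by rw [mul_comm]; exact hT3)
      omega
    have hdd : d * d ≤ 256 * k ^ 2 := by nlinarith
    have hS : N * ((T + 1) * 2) ≤ 2 ^ (16 * (A + 1) * d * k) := by
      have h1 : (T + 1) * 2 ≤ 2 ^ d := by
        calc (T + 1) * 2 ≤ 600 * k ^ 2 := by nlinarith
          _ ≤ (512 * (C + 10) + 600) * k ^ 2 := by gcongr; omega
          _ ≤ 2 ^ k := hbig
          _ ≤ 2 ^ d := Nat.pow_le_pow_right (by norm_num) (by omega)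
      calc _ ≤ 2 ^ M * 2 ^ d := by gcongr
        _ = 2 ^ (M + d) := by rw [pow_add]
        _ ≤ _ := by
          apply Nat.pow_le_pow_right (by norm_num)
          calc M + d ≤ A * d ^ 2 + d * d := by gcongr; nlinarith
            _ = (A + 1) * d * d := by ring
            _ ≤ (A + 1) * d * (16 * k) := by gcongr
            _ = _ := by ring
    have he : 10 * d + 33 * k + 4 + 2 * (16 * (A + 1) * d) ≤ C * d := by
      have : C * d = 16 * d + 2 * (16 * (A + 1) * d) := by rw [hC]; ring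
      omega
    have hL : (6 * d + t * (C * d)) + 3 * d + 1 ≤ 2 ^ k := by
      calc _ ≤ 6 * d + (d + 1) * (C * d) + 3 * d + 1 := by gcongr
        _ ≤ 2 * (C + 10) * (d * d) := by nlinarith
        _ ≤ 2 * (C + 10) * (256 * k ^ 2) := by gcongr
        _ ≤ (512 * (C + 10) + 600) * k ^ 2 := by nlinarith
        _ ≤ _ := hbig
    have hB := success_le (by omega) L P T ε _ fun ω =>
      block_bound (by omega) L ω T ε hε _ (hc0 ω) (k := k) (m := k) (β := (d - 1) / 2)
        (g := 16 * (A + 1) * d) (αm := 6 * d + t * (C * d)) (t := t) hk1 ht1 (by omega) (by omega)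
        hk1 hS hL (by gcongr; omega)
    refine absurd (hs.trans hB) (not_le.2 ?_)
    have e1 : (t : ℝ≥0∞) * (5 * 2⁻¹ ^ k) + 2 ^ (2 * (6 * d + t * (C * d)) + 3 * d) *
        ENNReal.ofReal ((8 * ε) ^ (d - 1)) + 2⁻¹ ^ k = ENNReal.ofReal ((5 * t + 1) * (1 / 2) ^ k +
          2 ^ (2 * (6 * d + t * (C * d)) + 3 * d) * (8 * ε) ^ (d - 1)) := by
      rw [ENNReal.ofReal_add (by positivity) (by positivity), ENNReal.ofReal_mul (by positivity),
        ENNReal.ofReal_mul (by positivity), ENNReal.ofReal_pow (by norm_num) k,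
        ENNReal.ofReal_pow (by norm_num) (2 * _ + _), one_div,
        ENNReal.ofReal_inv_of_pos (by norm_num), ENNReal.ofReal_add (by positivity) (by positivity),
        ENNReal.ofReal_mul (by positivity)]
      simp only [ENNReal.ofReal_ofNat, ENNReal.ofReal_natCast, ENNReal.ofReal_one]
      ring
    rw [e1]
    apply lt_two_thirds
    have b1 : (5 * t + 1 : ℝ) * (1 / 2) ^ k ≤ 1 / 3 := by
      have : (5 * t + 1) * 3 ≤ 2 ^ k := by
        calc _ ≤ 600 * k ^ 2 := by nlinarith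
          _ ≤ (512 * (C + 10) + 600) * k ^ 2 := by gcongr; omega
          _ ≤ 2 ^ k := hbig
      have h2 : (5 * t + 1 : ℝ) * 3 ≤ 2 ^ k := by exact_mod_cast this
      rw [one_div, inv_pow, ← div_eq_mul_inv, div_le_iff₀ (by positivity)]
      linarith
    have b2 : (2 : ℝ) ^ (2 * (6 * d + t * (C * d)) + 3 * d) * (8 * ε) ^ (d - 1) ≤ 1 / 4 := by
      refine le_trans ?_ exp_neg_two
      refine (mul_le_mul (two_pow_le_exp _) hp (by positivity) (by positivity)).trans ?_
      rw [← Real.exp_add, Real.exp_le_exp]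
      push_cast
      have h1 : (t : ℝ) * d ≤ 16 * T + d := by
        have : t * d ≤ 16 * T + d := by
          have := Nat.div_mul_le_self T k
          rw [ht, add_mul]
          nlinarith
        exact_mod_cast this
      have h2 : (t : ℝ) * (C * d) ≤ C * (16 * T + d) := by
        rw [mul_left_comm]; gcongr
      have h3 : (d : ℝ) * (72 + 8 * C) ≤ d * l := by gcongr
      have h4 : 32 * l ≤ d * l := by gcongr; linarith
      nlinarith
    linarith
  · have hB := success_le (by omega) L P T ε _ fun ω =>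
      trivial_bound (by omega) L ω T ε hε _ (hc0 ω)
    refine absurd (hs.trans hB) (not_le.2 ?_)
    rw [← ENNReal.ofReal_natCast, ← ENNReal.ofReal_mul (by positivity)]
    apply lt_two_thirds
    have h1 : ((N * ((T + 1) * 2) : ℕ) : ℝ) ≤ Real.exp (A * d ^ 2 + (d + l + 1)) := by
      rw [Real.exp_add, Real.exp_add, Real.exp_add]
      push_cast
      have a1 : (N : ℝ) ≤ Real.exp (A * d ^ 2) := by
        have : (N : ℝ) ≤ 2 ^ M := by exact_mod_cast hN
        refine this.trans ((two_pow_le_exp M).trans (Real.exp_le_exp.2 ?_))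
        exact_mod_cast hM
      have a2 : (T : ℝ) + 1 ≤ Real.exp d * Real.exp l := by
        have b1 := Real.add_one_le_exp (d : ℝ)
        have b2 := Real.add_one_le_exp l
        have b3 : (T : ℝ) ≤ T * (128 * C) := le_mul_of_one_le_right (by positivity) (by linarith)
        calc (T : ℝ) + 1 ≤ (d + 1) * (l + 1) := by nlinarith
          _ ≤ _ := by gcongr; linarith
      have a3 : (2 : ℝ) ≤ Real.exp 1 := by linarith [Real.exp_one_gt_d9]
      gcongr
    refine le_trans ?_ (exp_neg_two.trans (by norm_num))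
    refine (mul_le_mul h1 hp (by positivity) (by positivity)).trans ?_
    rw [← Real.exp_add, Real.exp_le_exp]
    have h3 : (d : ℝ) * (4 * (A + 2) * d) ≤ d * l := by gcongr
    have h4 : 32 * l ≤ d * l := by gcongr; linarith
    nlinarith [mul_nonneg hA0 (sq_nonneg (d : ℝ))]

end Vale.Agent.P309
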