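import Mathlib

namespace Vale.Agent.P309

open MeasureTheory ProbabilityTheory Set
open scoped ENNReal RealInnerProductSpace NNReal

abbrev Ed (d : ℕ) : Type := EuclideanSpace ℝ (Fin d)

variable {d : ℕ}

noncomputable abbrev gam (d : ℕ) : Measure (Ed d) := stdGaussian (Ed d)

theorem map_inner (w : Ed d) :
    (gam d).map (fun x => ⟪w, x⟫) = gaussianReal 0 (‖w‖₊ ^ 2) := by
  have := IsGaussian.map_eq_gaussianReal (μ := gam d) (innerSL ℝ w)
  rw [integral_strongDual_stdGaussian, variance_dual_stdGaussian, innerSL_apply_norm] at this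
  rw [Real.toNNReal_pow (norm_nonneg _), norm_toNNReal] at this
  exact this

theorem gauss_Icc (ρ : ℝ≥0) (hρ : ρ ≠ 0) (a η : ℝ) (hη : 0 ≤ η) :
    gaussianReal 0 (ρ ^ 2) {t | |a + t| ≤ η} ≤ ENNReal.ofReal η * (ENNReal.ofReal ρ)⁻¹ := by
  have hρ' : (0 : ℝ) < ρ := by positivity
  rw [gaussianReal_apply _ (pow_ne_zero 2 hρ)]
  have hset : {t : ℝ | |a + t| ≤ η} = Icc (-η - a) (η - a) := by
    ext t; simp only [mem_setOf_eq, mem_Icc, abs_le]; constructor <;> intro h <;>
      constructor <;> linarith [h.1, h.2]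
  rw [hset]
  calc ∫⁻ x in Icc (-η - a) (η - a), gaussianPDF 0 (ρ ^ 2) x
      ≤ ∫⁻ _x in Icc (-η - a) (η - a), ENNReal.ofReal ((2 * ρ : ℝ)⁻¹) := by
        apply lintegral_mono
        intro x
        apply ENNReal.ofReal_le_ofReal
        unfold gaussianPDFReal
        have h1 : Real.exp (-(x - 0) ^ 2 / (2 * ((ρ ^ 2 : ℝ≥0) : ℝ))) ≤ 1 := by
          rw [Real.exp_le_one_iff]
          apply div_nonpos_of_nonpos_of_nonneg
          · nlinarith [sq_nonneg (x - 0)]
          · positivity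
        have h2 : (2 * ρ : ℝ) ≤ √(2 * Real.pi * ((ρ ^ 2 : ℝ≥0) : ℝ)) := by
          apply Real.le_sqrt_of_sq_le
          push_cast
          nlinarith [Real.two_le_pi, sq_nonneg (ρ : ℝ)]
        calc _ ≤ (√(2 * Real.pi * ((ρ ^ 2 : ℝ≥0) : ℝ)))⁻¹ * 1 := by gcongr
          _ ≤ (2 * ρ : ℝ)⁻¹ := by rw [mul_one]; gcongr
    _ = _ := by
        rw [setLIntegral_const, Real.volume_Icc, ← ENNReal.ofReal_inv_of_pos hρ',
          ← ENNReal.ofReal_mul (by positivity), ← ENNReal.ofReal_mul hη]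
        congr 1
        field_simp
        ring

/-- Distance to a subspace. -/
noncomputable def dsub (V : Submodule ℝ (Ed d)) (v : Ed d) : ℝ := ‖v - V.starProjection v‖

theorem continuous_dsub (V : Submodule ℝ (Ed d)) : Continuous (dsub V) := by
  unfold dsub; fun_prop

theorem dsub_le (V : Submodule ℝ (Ed d)) (v : Ed d) : dsub V v ≤ ‖v‖ := by
  unfold dsub
  rw [← Submodule.starProjection_orthogonal_val]
  exact Submodule.norm_starProjection_apply_le _ _

theorem dsub_add_le (V : Submodule ℝ (Ed d)) (v w : Ed d) : dsub V (v + w) ≤ dsub V v + ‖w‖ := by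
  have h := dsub_le V w
  unfold dsub at *
  rw [map_add]
  calc ‖v + w - (V.starProjection v + V.starProjection w)‖
      = ‖(v - V.starProjection v) + (w - V.starProjection w)‖ := by congr 1; abel
    _ ≤ _ := (norm_add_le _ _).trans (by linarith)

theorem dsub_mem (V : Submodule ℝ (Ed d)) {v : Ed d} (h : v ∈ V) : dsub V v = 0 := by
  unfold dsub
  rw [Submodule.starProjection_eq_self_iff.2 h]; simp

/-- `A` only depends on inner products with elements of `V`. -/
def Det (V : Submodule ℝ (Ed d)) (A : Set (Ed d)) : Prop :=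
  ∀ x y : Ed d, (∀ u ∈ V, ⟪u, x⟫ = ⟪u, y⟫) → x ∈ A → y ∈ A

theorem anti_conc (V : Submodule ℝ (Ed d)) {A : Set (Ed d)} (hA : MeasurableSet A) (hD : Det V A)
    (v : Ed d) (η : ℝ) (hη : 0 < η) :
    gam d (A ∩ {x | |⟪v, x⟫| ≤ η}) ≤
      gam d A * (ENNReal.ofReal η * (ENNReal.ofReal (dsub V v))⁻¹) := by
  set w := v - V.starProjection v with hw
  by_cases h0 : w = 0
  · have : dsub V v = 0 := by unfold dsub; rw [← hw, h0, norm_zero]
    rw [this]
    by_cases hA0 : gam d A = 0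
    · rw [measure_mono_null inter_subset_left hA0]; simp
    · simp [hA0, hη, ENNReal.mul_top]
  have hwV : w ∈ Vᗮ := Submodule.sub_starProjection_mem_orthogonal v
  let L : Ed d →L[ℝ] Ed d × ℝ := V.starProjection.prod (innerSL ℝ w)
  have hG : HasGaussianLaw (fun x : Ed d => (V.starProjection x, ⟪w, x⟫)) (gam d) :=
    (IsGaussian.hasGaussianLaw_id (μ := gam d)).map_of_measurable L L.continuous.measurable
  have hI : IndepFun (fun x : Ed d => V.starProjection x) (fun x => ⟪w, x⟫) (gam d) := by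
    apply hG.indepFun_of_covariance_inner
    intro x y
    have e1 : (fun ω : Ed d => ⟪x, V.starProjection ω⟫) = fun ω => ⟪V.starProjection x, ω⟫ := by
      funext ω; rw [Submodule.inner_starProjection_left_eq_right]
    have e2 : (fun ω : Ed d => ⟪y, ⟪w, ω⟫⟫) = fun ω => ⟪y • w, ω⟫ := by
      funext ω; rw [real_inner_smul_left]; simp [mul_comm]
    rw [e1, e2, ← covarianceBilin_apply_eq_cov IsGaussian.memLp_two_id,
      covarianceBilin_stdGaussian, innerSL_apply_apply, real_inner_smul_right,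
      Submodule.inner_right_of_mem_orthogonal (V.starProjection_apply_mem x) hwV, mul_zero]
  have hm1 : Measurable (fun x : Ed d => V.starProjection x) := by fun_prop
  have hm2 : Measurable (fun x : Ed d => ⟪w, x⟫) := by fun_prop
  have hmap := (indepFun_iff_map_prod_eq_prod_map_map hm1.aemeasurable hm2.aemeasurable).1 hI
  have hS : MeasurableSet {p : Ed d × ℝ | p.1 ∈ A ∧ |⟪v, p.1⟫ + p.2| ≤ η} := by
    apply MeasurableSet.inter (measurable_fst hA)
    exact measurableSet_le (f := fun p : Ed d × ℝ => |⟪v, p.1⟫ + p.2|) (by fun_prop)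
      measurable_const
  have hproj : ∀ x : Ed d, ∀ u ∈ V, ⟪u, x⟫ = ⟪u, V.starProjection x⟫ := by
    intro x u hu
    rw [← Submodule.inner_starProjection_left_eq_right, Submodule.starProjection_eq_self_iff.2 hu]
  have hpre : A ∩ {x | |⟪v, x⟫| ≤ η} ⊆ (fun x : Ed d => (V.starProjection x, ⟪w, x⟫)) ⁻¹'
      {p : Ed d × ℝ | p.1 ∈ A ∧ |⟪v, p.1⟫ + p.2| ≤ η} := by
    rintro x ⟨hx1, hx2⟩
    refine ⟨hD x _ (hproj x) hx1, ?_⟩
    have : ⟪v, V.starProjection x⟫ + ⟪w, x⟫ = ⟪v, x⟫ := by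
      rw [hw, inner_sub_left, Submodule.inner_starProjection_left_eq_right]; ring
    simp only [this]
    exact hx2
  have hpre2 : (fun x : Ed d => V.starProjection x) ⁻¹' A = A := by
    ext x
    exact ⟨fun h => hD _ x (fun u hu => (hproj x u hu).symm) h, fun h => hD x _ (hproj x) h⟩
  refine (measure_mono hpre).trans ?_
  rw [← Measure.map_apply (hm1.prodMk hm2) hS, hmap, Measure.prod_apply hS, map_inner]
  calc _ ≤ ∫⁻ p, A.indicator (fun _ => ENNReal.ofReal η * (ENNReal.ofReal (dsub V v))⁻¹) p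
        ∂((gam d).map (fun x : Ed d => V.starProjection x)) := by
        apply lintegral_mono
        intro p
        by_cases hp : p ∈ A
        · simp only [indicator_of_mem hp]
          have := gauss_Icc ‖w‖₊ (by simpa using h0) ⟪v, p⟫ η hη.le
          refine le_trans (measure_mono ?_) this
          intro t ht
          exact ht.2
        · simp only [indicator_of_notMem hp]
          rw [show (Prod.mk p ⁻¹' {p : Ed d × ℝ | p.1 ∈ A ∧ |⟪v, p.1⟫ + p.2| ≤ η}) = ∅ by
            ext t; simp [hp]]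
          simp
    _ = _ := by
        rw [lintegral_indicator_const hA, Measure.map_apply hm1 hA, hpre2, mul_comm]

theorem exp_moment (v : Ed d) (hv : ‖v‖ ≤ 1) :
    Integrable (fun x => Real.exp ⟪v, x⟫) (gam d) ∧ ∫ x, Real.exp ⟪v, x⟫ ∂(gam d) ≤ 2 := by
  have hm2 : Measurable (fun x : Ed d => ⟪v, x⟫) := by fun_prop
  have h1 := integrable_exp_mul_gaussianReal (μ := 0) (v := ‖v‖₊ ^ 2) 1
  rw [← map_inner, integrable_map_measure (by fun_prop) hm2.aemeasurable] at h1
  refine ⟨by simpa [Function.comp_def] using h1, ?_⟩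
  have h2 := congrFun (mgf_id_gaussianReal (μ := 0) (v := ‖v‖₊ ^ 2)) 1
  rw [← map_inner, mgf, integral_map hm2.aemeasurable (by fun_prop)] at h2
  simp only [id, one_mul, mul_one, zero_add, one_pow] at h2
  rw [h2]
  have h3 : (((‖v‖₊ ^ 2 : ℝ≥0) : ℝ)) / 2 ≤ 1 / 2 := by
    push_cast
    have : ‖v‖ ^ 2 ≤ 1 := pow_le_one₀ (norm_nonneg _) hv
    linarith
  refine (Real.exp_le_exp.2 h3).trans ?_
  have h4 : Real.exp (1 / 2) * Real.exp (1 / 2) = Real.exp 1 := by rw [← Real.exp_add]; norm_num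
  nlinarith [Real.exp_one_lt_d9, Real.exp_pos (1 / 2)]

theorem tail_bound {ι : Type} [Fintype ι] {k : ℕ} (hk : Fintype.card ι ≤ k) (v : Ed d) (r : ℝ)
    (hr : 0 < r) (hv : ‖v‖ ≤ r) :
    (Measure.pi fun _ : ι => gam d) {X | 3 * k * r < ∑ l, |⟪X l, v⟫|} ≤ 2⁻¹ ^ k := by
  set u := r⁻¹ • v with hu
  have hu1 : ‖u‖ ≤ 1 := by
    rw [hu, norm_smul, norm_inv, Real.norm_of_nonneg hr.le, inv_mul_le_iff₀ hr]; simpa using hv
  obtain ⟨i1, b1⟩ := exp_moment u hu1
  obtain ⟨i2, b2⟩ := exp_moment (-u) (by simpa using hu1)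
  let g : Ed d → ℝ := fun x => Real.exp ⟪u, x⟫ + Real.exp ⟪-u, x⟫
  have hg : Integrable g (gam d) := i1.add i2
  have hg0 : ∀ x, 0 ≤ g x := fun x => by positivity
  have hgi : ∫ x, g x ∂(gam d) ≤ 4 := by
    rw [integral_add i1 i2]; linarith
  have hG : Integrable (fun X : ι → Ed d => ∏ l, g (X l)) (Measure.pi fun _ : ι => gam d) :=
    Integrable.fintype_prod (f := fun _ => g) fun _ => hg
  have hM := mul_meas_ge_le_integral_of_nonneg
    (ae_of_all _ fun X : ι → Ed d => Finset.prod_nonneg fun l _ => hg0 (X l)) hG (Real.exp (3 * k))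
  rw [integral_fintype_prod_eq_pow] at hM
  have hsub : {X : ι → Ed d | 3 * k * r < ∑ l, |⟪X l, v⟫|} ⊆
      {X | Real.exp (3 * k) ≤ ∏ l, g (X l)} := by
    intro X hX
    simp only [mem_setOf_eq] at hX ⊢
    have h1 : (3 * k : ℝ) ≤ ∑ l, |⟪u, X l⟫| := by
      simp only [hu, real_inner_smul_left, abs_mul, abs_inv, abs_of_pos hr, ← Finset.mul_sum]
      rw [le_inv_mul_iff₀ hr]
      simp only [real_inner_comm (X _) v]
      linarith
    refine (Real.exp_le_exp.2 h1).trans ?_
    rw [Real.exp_sum]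
    apply Finset.prod_le_prod (fun _ _ => (Real.exp_pos _).le)
    intro l _
    simp only [g, inner_neg_left]
    rcases abs_cases ⟪u, X l⟫ with h | h <;> rw [h.1] <;> linarith [Real.exp_pos ⟪u, X l⟫,
      Real.exp_pos (-⟪u, X l⟫)]
  refine (measure_mono hsub).trans ?_
  have h8 : (8 : ℝ) ^ k ≤ Real.exp (3 * k) := by
    rw [mul_comm, Real.exp_nat_mul]
    gcongr
    have : Real.exp 3 = Real.exp 1 ^ 3 := by rw [← Real.exp_nat_mul]; norm_num
    rw [this]
    calc (8 : ℝ) = 2 ^ 3 := by norm_num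
      _ ≤ _ := by gcongr; linarith [Real.exp_one_gt_d9]
  have h4 : (∫ x, g x ∂(gam d)) ^ Fintype.card ι ≤ 4 ^ k :=
    (pow_le_pow_left₀ (integral_nonneg hg0) hgi _).trans (pow_le_pow_right₀ (by norm_num) hk)
  have h5 : (Measure.pi fun _ : ι => gam d).real {X | Real.exp (3 * k) ≤ ∏ l, g (X l)} ≤
      (1 / 2) ^ k := by
    have hp := measureReal_nonneg (μ := Measure.pi fun _ : ι => gam d)
      (s := {X | Real.exp (3 * k) ≤ ∏ l, g (X l)})
    have : (8 : ℝ) ^ k * (Measure.pi fun _ : ι => gam d).real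
        {X | Real.exp (3 * k) ≤ ∏ l, g (X l)} ≤ 8 ^ k * (1 / 2) ^ k := by
      rw [← mul_pow]; norm_num
      exact le_trans (by gcongr) (hM.trans h4)
    exact le_of_mul_le_mul_left this (by positivity)
  rw [← ofReal_measureReal (measure_ne_top _ _)]
  refine (ENNReal.ofReal_le_ofReal h5).trans (le_of_eq ?_)
  rw [ENNReal.ofReal_pow (by norm_num), one_div, ENNReal.ofReal_inv_of_pos (by norm_num)]
  simp

end Vale.Agent.P309
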