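import Vale.Agent.P309.Vol

namespace Vale.Agent.P309

open MeasureTheory ProbabilityTheory Set Metric
open scoped ENNReal RealInnerProductSpace NNReal

variable {d : ℕ} {ι : Type} [Fintype ι]

noncomputable abbrev Gm (ι : Type) [Fintype ι] (d : ℕ) : Measure (ι → Ed d) :=
  Measure.pi fun _ : ι => gam d

noncomputable abbrev nu (ι : Type) [Fintype ι] (d : ℕ) : Measure ((ι → Ed d) × (ι → ℝ)) :=
  (Gm ι d).prod volume

noncomputable def lab (X : ι → Ed d) (s : Ed d) : ι → ℝ := fun l => ⟪X l, s⟫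

theorem continuous_lab : Continuous (fun p : (ι → Ed d) × Ed d => lab p.1 p.2) := by
  unfold lab; fun_prop

def box (η : ℝ) (s : Ed d) : Set ((ι → Ed d) × (ι → ℝ)) := {p | ∀ l, |p.2 l - ⟪p.1 l, s⟫| ≤ η / 2}

theorem measurableSet_box2 (η : ℝ) :
    MeasurableSet {q : ((ι → Ed d) × (ι → ℝ)) × Ed d | q.1 ∈ box η q.2} := by
  apply IsClosed.measurableSet
  have : {q : ((ι → Ed d) × (ι → ℝ)) × Ed d | q.1 ∈ box η q.2} =
      ⋂ l, {q : ((ι → Ed d) × (ι → ℝ)) × Ed d | |q.1.2 l - ⟪q.1.1 l, q.2⟫| ≤ η / 2} := by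
    ext q; simp [box]
  rw [this]
  exact isClosed_iInter fun l => isClosed_le (by fun_prop) continuous_const

theorem measurableSet_box (η : ℝ) (s : Ed d) : MeasurableSet (box (ι := ι) η s) :=
  (measurable_prodMk_right (y := s)) (measurableSet_box2 η)

noncomputable def PP (η : ℝ) (μ : Measure (Ed d)) (p : (ι → Ed d) × (ι → ℝ)) : ℝ≥0∞ :=
  (ENNReal.ofReal η)⁻¹ ^ Fintype.card ι * μ {s | p ∈ box η s}

theorem measurable_PP (η : ℝ) (μ : Measure (Ed d)) [SFinite μ] : Measurable (PP (ι := ι) η μ) :=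
  (measurable_measure_prodMk_left (measurableSet_box2 η)).const_mul _

theorem tonelli_PP (η : ℝ) (μ : Measure (Ed d)) [SFinite μ] {g : (ι → Ed d) × (ι → ℝ) → ℝ≥0∞}
    (hg : Measurable g) :
    ∫⁻ p, g p * PP η μ p ∂nu ι d =
      (ENNReal.ofReal η)⁻¹ ^ Fintype.card ι * ∫⁻ s, ∫⁻ p in box η s, g p ∂nu ι d ∂μ := by
  have hm : Measurable (fun q : ((ι → Ed d) × (ι → ℝ)) × Ed d =>
      {q : ((ι → Ed d) × (ι → ℝ)) × Ed d | q.1 ∈ box η q.2}.indicator (fun q => g q.1) q) :=
    (hg.comp measurable_fst).indicator (measurableSet_box2 η)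
  have h1 : ∀ p, g p * μ {s | p ∈ box η s} = ∫⁻ s,
      {q : ((ι → Ed d) × (ι → ℝ)) × Ed d | q.1 ∈ box η q.2}.indicator (fun q => g q.1) (p, s) ∂μ := by
    intro p
    have hs : MeasurableSet {s | p ∈ box η s} :=
      (measurable_prodMk_left (x := p)) (measurableSet_box2 η)
    rw [← lintegral_indicator_const hs]
    rfl
  have h2 : ∀ s, ∫⁻ p in box η s, g p ∂nu ι d = ∫⁻ p,
      {q : ((ι → Ed d) × (ι → ℝ)) × Ed d | q.1 ∈ box η q.2}.indicator (fun q => g q.1) (p, s)
        ∂nu ι d := by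
    intro s
    rw [← lintegral_indicator (measurableSet_box η s)]
    rfl
  simp only [PP, mul_left_comm (g _), h1, h2]
  rw [lintegral_const_mul _ hm.lintegral_prod_right', lintegral_lintegral_swap hm.aemeasurable]

theorem vol_box (η : ℝ) (hη : 0 ≤ η) (s : Ed d) (X : ι → Ed d) :
    volume (Prod.mk X ⁻¹' box η s) = ENNReal.ofReal η ^ Fintype.card ι := by
  have : Prod.mk X ⁻¹' box η s =
      Set.pi univ fun l => Icc (⟪X l, s⟫ - η / 2) (⟪X l, s⟫ + η / 2) := by
    ext y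
    simp only [box, mem_preimage, mem_setOf_eq, mem_pi, mem_univ, true_imp_iff, mem_Icc, abs_le]
    apply forall_congr'
    intro l
    constructor <;> intro h <;> constructor <;> linarith [h.1, h.2]
  rw [this, volume_pi_pi]
  simp [Real.volume_Icc]

theorem moment_ind (η : ℝ) (hη : 0 < η) (μ : Measure (Ed d)) [SFinite μ] (c : Ed d) (m : ℕ)
    (H : ℝ≥0∞) (hH : ∀ V : Submodule ℝ (Ed d), Module.finrank ℝ V ≤ m →
      ∫⁻ s, (ENNReal.ofReal (dsub V (s - c)))⁻¹ ^ Fintype.card ι ∂μ ≤ H) (n : ℕ) :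
    ∀ (V : Submodule ℝ (Ed d)) (A : Set (Ed d)), MeasurableSet A → Det V A →
      Module.finrank ℝ V + n ≤ m →
      ∫⁻ p in {p | ∀ l, p.1 l ∈ A} ∩ box η c, PP η μ p ^ n ∂nu ι d ≤
        ENNReal.ofReal η ^ Fintype.card ι * gam d A ^ Fintype.card ι * H ^ n := by
  have hmA : ∀ A : Set (Ed d), MeasurableSet A →
      MeasurableSet ({p : (ι → Ed d) × (ι → ℝ) | ∀ l, p.1 l ∈ A} ∩ box η c) := by
    intro A hA
    refine MeasurableSet.inter ?_ (measurableSet_box η c)
    simp only [setOf_forall]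
    exact MeasurableSet.iInter fun l => ((measurable_pi_apply l).comp measurable_fst) hA
  induction n with
  | zero =>
    intro V A hA _ _
    simp only [pow_zero, lintegral_one, Measure.restrict_apply_univ, mul_one]
    rw [Measure.prod_apply (hmA A hA)]
    have hpi : MeasurableSet (Set.pi univ fun _ : ι => A) := MeasurableSet.univ_pi fun _ => hA
    calc _ ≤ ∫⁻ X, (Set.pi univ fun _ : ι => A).indicator
          (fun _ => ENNReal.ofReal η ^ Fintype.card ι) X ∂Gm ι d := by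
          apply lintegral_mono
          intro X
          by_cases hX : X ∈ Set.pi univ fun _ : ι => A
          · simp only [indicator_of_mem hX]
            rw [← vol_box η hη.le c X]
            exact measure_mono fun y hy => hy.2
          · simp only [indicator_of_notMem hX]
            rw [show (Prod.mk X ⁻¹' ({p : (ι → Ed d) × (ι → ℝ) | ∀ l, p.1 l ∈ A} ∩ box η c)) = ∅ by
              ext y
              simp only [mem_preimage, mem_inter_iff, mem_setOf_eq, mem_empty_iff_false, iff_false]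
              intro h
              exact hX fun l _ => h.1 l]
            simp
      _ = _ := by
          rw [lintegral_indicator_const hpi, Measure.pi_pi]
          simp
  | succ n ih =>
    intro V A hA hD hV
    have hg : Measurable (({p : (ι → Ed d) × (ι → ℝ) | ∀ l, p.1 l ∈ A} ∩ box η c).indicator
        fun p => PP η μ p ^ n) := ((measurable_PP η μ).pow_const n).indicator (hmA A hA)
    have e1 : ∫⁻ p in {p | ∀ l, p.1 l ∈ A} ∩ box η c, PP η μ p ^ (n + 1) ∂nu ι d =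
        ∫⁻ p, (({p : (ι → Ed d) × (ι → ℝ) | ∀ l, p.1 l ∈ A} ∩ box η c).indicator
        (fun p => PP η μ p ^ n)) p * PP η μ p ∂nu ι d := by
      rw [← lintegral_indicator (hmA A hA)]
      congr 1
      funext p
      by_cases hp : p ∈ {p : (ι → Ed d) × (ι → ℝ) | ∀ l, p.1 l ∈ A} ∩ box η c
      · simp only [indicator_of_mem hp, pow_succ]
      · simp only [indicator_of_notMem hp, zero_mul]
    rw [e1, tonelli_PP η μ hg]
    have hη0 : ENNReal.ofReal η ≠ 0 := by simpa using hη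
    have key : ∀ s, ∫⁻ p in box η s, (({p : (ι → Ed d) × (ι → ℝ) | ∀ l, p.1 l ∈ A} ∩
        box η c).indicator (fun p => PP η μ p ^ n)) p ∂nu ι d ≤
        (ENNReal.ofReal η ^ Fintype.card ι * (ENNReal.ofReal η ^ Fintype.card ι *
          gam d A ^ Fintype.card ι * H ^ n)) *
          (ENNReal.ofReal (dsub V (s - c)))⁻¹ ^ Fintype.card ι := by
      intro s
      rw [lintegral_indicator (hmA A hA), Measure.restrict_restrict (hmA A hA)]
      have hA' : MeasurableSet (A ∩ {x | |⟪s - c, x⟫| ≤ η}) :=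
        hA.inter (measurableSet_le (f := fun x : Ed d => |⟪s - c, x⟫|) (by fun_prop)
          measurable_const)
      have hD' : Det (V ⊔ Submodule.span ℝ {s - c}) (A ∩ {x | |⟪s - c, x⟫| ≤ η}) := by
        rintro x y h ⟨h1, h2⟩
        refine ⟨hD x y (fun u hu => h u (Submodule.mem_sup_left hu)) h1, ?_⟩
        simp only [mem_setOf_eq] at h2 ⊢
        rw [← h _ (Submodule.mem_sup_right (Submodule.mem_span_singleton_self _))]
        exact h2
      have hV' : Module.finrank ℝ (V ⊔ Submodule.span ℝ {s - c} : Submodule ℝ (Ed d)) + n ≤ m := by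
        have a1 := Submodule.finrank_add_le_finrank_add_finrank V (Submodule.span ℝ {s - c})
        have a2 : Module.finrank ℝ (Submodule.span ℝ {s - c}) ≤ 1 :=
          (finrank_span_le_card _).trans (by simp)
        omega
      have h1 := ih _ _ hA' hD' hV'
      have hsub : {p : (ι → Ed d) × (ι → ℝ) | ∀ l, p.1 l ∈ A} ∩ box η c ∩ box η s ⊆
          {p | ∀ l, p.1 l ∈ A ∩ {x | |⟪s - c, x⟫| ≤ η}} ∩ box η c := by
        rintro p ⟨⟨h1, h2⟩, h3⟩
        refine ⟨fun l => ⟨h1 l, ?_⟩, h2⟩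
        have b1 := h2 l
        have b2 := h3 l
        simp only [mem_setOf_eq, inner_sub_left]
        rw [real_inner_comm (p.1 l) s, real_inner_comm (p.1 l) c]
        rw [abs_le] at *
        constructor <;> linarith [b1.1, b1.2, b2.1, b2.2]
      refine (lintegral_mono_set hsub).trans (h1.trans ?_)
      have h2 := anti_conc V hA hD (s - c) η hη
      calc _ ≤ ENNReal.ofReal η ^ Fintype.card ι * (gam d A * (ENNReal.ofReal η *
            (ENNReal.ofReal (dsub V (s - c)))⁻¹)) ^ Fintype.card ι * H ^ n := by gcongr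
        _ = _ := by rw [mul_pow, mul_pow]; ring
    have hmd : Measurable fun s : Ed d => (ENNReal.ofReal (dsub V (s - c)))⁻¹ ^ Fintype.card ι :=
      ((((continuous_dsub V).comp (continuous_id.sub continuous_const)).measurable).ennreal_ofReal.inv).pow_const _
    refine (mul_le_mul_right (lintegral_mono key) _).trans ?_
    rw [lintegral_const_mul _ hmd, ← mul_assoc, ← mul_assoc, ← mul_pow,
      ENNReal.inv_mul_cancel hη0 ENNReal.ofReal_ne_top, one_pow, one_mul, pow_succ, ← mul_assoc]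
    gcongr
    exact hH V (by omega)

theorem moment_bound (η : ℝ) (hη : 0 < η) (μ : Measure (Ed d)) [SFinite μ] (Q : Set (Ed d))
    (hQ : μ Qᶜ = 0) (m : ℕ) (H : ℝ≥0∞) (hH : ∀ c ∈ Q, ∀ V : Submodule ℝ (Ed d),
      Module.finrank ℝ V ≤ m →
      ∫⁻ s, (ENNReal.ofReal (dsub V (s - c)))⁻¹ ^ Fintype.card ι ∂μ ≤ H) :
    ∫⁻ p, PP η μ p ^ m * PP η μ p ∂nu ι d ≤ H ^ m * μ univ := by
  rw [tonelli_PP η μ ((measurable_PP η μ).pow_const m)]
  have hη0 : ENNReal.ofReal η ≠ 0 := by simpa using hη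
  have key : ∀ᵐ s ∂μ, ∫⁻ p in box η s, PP η μ p ^ m ∂nu ι d ≤
      ENNReal.ofReal η ^ Fintype.card ι * H ^ m := by
    have : ∀ᵐ s ∂μ, s ∈ Q := hQ
    filter_upwards [this] with s hs
    have := moment_ind η hη μ s m H (hH s hs) m ⊥ univ MeasurableSet.univ
      (fun _ _ _ _ => mem_univ _) (by simp)
    simpa using this
  refine (mul_le_mul_right (lintegral_mono_ae key) _).trans ?_
  rw [lintegral_const, ← mul_assoc, ← mul_assoc, ← mul_pow,
    ENNReal.inv_mul_cancel hη0 ENNReal.ofReal_ne_top, one_pow, one_mul]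

theorem le_thresh (P τ : ℝ≥0∞) (hτ : τ ≠ 0) (hτ' : τ ≠ ⊤) (m : ℕ) :
    P ≤ τ + τ⁻¹ ^ m * (P ^ m * P) := by
  rcases le_total P τ with h | h
  · exact h.trans le_self_add
  · refine le_trans ?_ le_add_self
    rw [← mul_assoc, ← mul_pow]
    have : 1 ≤ τ⁻¹ * P := by
      rw [← ENNReal.inv_mul_cancel hτ hτ']; gcongr
    exact le_mul_of_one_le_left' (one_le_pow₀ this)

/-- The slice probability. -/
noncomputable def sl (W : Set ((ι → Ed d) × (ι → ℝ))) (s : Ed d) : ℝ≥0∞ :=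
  Gm ι d {X | (X, lab X s) ∈ W}

theorem measurable_pair : Measurable (fun q : Ed d × (ι → Ed d) => (q.2, lab q.2 q.1)) :=
  measurable_snd.prodMk (continuous_lab.comp continuous_swap).measurable

theorem measurable_sl {W : Set ((ι → Ed d) × (ι → ℝ))} (hW : MeasurableSet W) :
    Measurable (sl W) :=
  measurable_measure_prodMk_left (measurable_pair hW)

theorem key_open (μ : Measure (Ed d)) [SFinite μ] (τ B : ℝ≥0∞) (hτ : τ ≠ 0) (hτ' : τ ≠ ⊤) (m : ℕ)
    (hB : ∀ η : ℝ, 0 < η → ∫⁻ p, PP η μ p ^ m * PP η μ p ∂nu ι d ≤ B)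
    {U : Set ((ι → Ed d) × (ι → ℝ))} (hU : IsOpen U) :
    ∫⁻ s, sl U s ∂μ ≤ τ * nu ι d U + τ⁻¹ ^ m * B := by
  have hUm := hU.measurableSet
  have e0 : ∫⁻ s, sl U s ∂μ =
      (μ.prod (Gm ι d)) ((fun q : Ed d × (ι → Ed d) => (q.2, lab q.2 q.1)) ⁻¹' U) := by
    rw [Measure.prod_apply (measurable_pair hUm)]
    rfl
  let Un : ℕ → Set (Ed d × (ι → Ed d)) := fun n =>
    {q | ∀ y, (q.2, y) ∈ box (1 / ((n : ℝ) + 1)) q.1 → (q.2, y) ∈ U}
  have hmono : Monotone Un := by
    intro a b hab q hq y hy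
    apply hq y
    intro l
    refine (hy l).trans ?_
    have : (a : ℝ) ≤ b := by exact_mod_cast hab
    gcongr
  have hcov : (fun q : Ed d × (ι → Ed d) => (q.2, lab q.2 q.1)) ⁻¹' U ⊆ ⋃ n, Un n := by
    intro q hq
    have ho : IsOpen (Prod.mk q.2 ⁻¹' U) := hU.preimage (by fun_prop)
    obtain ⟨ε, hε, hb⟩ := Metric.isOpen_iff.1 ho (lab q.2 q.1) hq
    obtain ⟨n, hn⟩ := exists_nat_one_div_lt hε
    refine mem_iUnion.2 ⟨n, fun y hy => hb ?_⟩
    rw [mem_ball, dist_pi_lt_iff hε]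
    intro l
    have := hy l
    rw [Real.dist_eq]
    have h0 : (0 : ℝ) < 1 / ((n : ℝ) + 1) := by positivity
    exact lt_of_le_of_lt this (by linarith)
  rw [e0]
  refine (measure_mono hcov).trans ?_
  rw [hmono.measure_iUnion]
  refine iSup_le fun n => ?_
  set η : ℝ := 1 / ((n : ℝ) + 1) with hηd
  have hη : 0 < η := by positivity
  have hη0 : ENNReal.ofReal η ≠ 0 := by simpa using hη
  have hS : MeasurableSet {r : (Ed d × (ι → Ed d)) × (ι → ℝ) |
      (r.1.2, r.2) ∈ U ∧ (r.1.2, r.2) ∈ box η r.1.1} := by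
    apply MeasurableSet.inter
    · exact (by fun_prop : Measurable fun r : (Ed d × (ι → Ed d)) × (ι → ℝ) => (r.1.2, r.2)) hUm
    · exact (by fun_prop : Measurable fun r : (Ed d × (ι → Ed d)) × (ι → ℝ) =>
        ((r.1.2, r.2), r.1.1)) (measurableSet_box2 η)
  let I : Ed d × (ι → Ed d) → ℝ≥0∞ := fun q => volume (Prod.mk q.2 ⁻¹' (U ∩ box η q.1))
  have hI : Measurable I := measurable_measure_prodMk_left hS
  have h1 : ENNReal.ofReal η ^ Fintype.card ι * (μ.prod (Gm ι d)) (Un n) ≤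
      ∫⁻ q, I q ∂(μ.prod (Gm ι d)) := by
    refine le_trans ?_ (mul_meas_ge_le_lintegral hI (ENNReal.ofReal η ^ Fintype.card ι))
    gcongr
    intro q hq
    simp only [mem_setOf_eq, I]
    rw [← vol_box η hη.le q.1 q.2]
    exact measure_mono fun y hy => ⟨hq y hy, hy⟩
  have h2 : (ENNReal.ofReal η)⁻¹ ^ Fintype.card ι * ∫⁻ q, I q ∂(μ.prod (Gm ι d)) =
      ∫⁻ p, U.indicator 1 p * PP η μ p ∂nu ι d := by
    rw [tonelli_PP η μ (measurable_one.indicator hUm), lintegral_prod _ hI.aemeasurable]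
    congr 2
    funext s
    rw [lintegral_indicator_one hUm, Measure.restrict_apply hUm,
      Measure.prod_apply (hUm.inter (measurableSet_box η s))]
  calc (μ.prod (Gm ι d)) (Un n) = (ENNReal.ofReal η)⁻¹ ^ Fintype.card ι *
        (ENNReal.ofReal η ^ Fintype.card ι * (μ.prod (Gm ι d)) (Un n)) := by
        rw [← mul_assoc, ← mul_pow, ENNReal.inv_mul_cancel hη0 ENNReal.ofReal_ne_top, one_pow,
          one_mul]
    _ ≤ ∫⁻ p, U.indicator 1 p * PP η μ p ∂nu ι d := by rw [← h2]; gcongr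
    _ ≤ ∫⁻ p, (U.indicator (fun _ => τ) p + τ⁻¹ ^ m * (PP η μ p ^ m * PP η μ p)) ∂nu ι d := by
        apply lintegral_mono
        intro p
        by_cases hp : p ∈ U
        · simp only [indicator_of_mem hp, Pi.one_apply, one_mul]
          exact le_thresh _ τ hτ hτ' m
        · simp [indicator_of_notMem hp]
    _ ≤ _ := by
        rw [lintegral_add_left (measurable_const.indicator hUm), lintegral_indicator_const hUm,
          lintegral_const_mul _ (((measurable_PP η μ).pow_const m).fun_mul (measurable_PP η μ))]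
        gcongr
        exact hB η hη

theorem key_meas (μ : Measure (Ed d)) [SFinite μ] (Q : Set (Ed d))
    (hQ : μ Qᶜ = 0) (m : ℕ) (H : ℝ≥0∞) (hH : ∀ c ∈ Q, ∀ V : Submodule ℝ (Ed d),
      Module.finrank ℝ V ≤ m →
      ∫⁻ s, (ENNReal.ofReal (dsub V (s - c)))⁻¹ ^ Fintype.card ι ∂μ ≤ H)
    (τ : ℝ≥0∞) (hτ : τ ≠ 0) (hτ' : τ ≠ ⊤) (W : Set ((ι → Ed d) × (ι → ℝ))) :
    ∫⁻ s, sl W s ∂μ ≤ τ * nu ι d W + τ⁻¹ ^ m * (H ^ m * μ univ) := by
  apply ENNReal.le_of_forall_pos_le_add
  intro ε hε _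
  have hε' : (ε : ℝ≥0∞) / τ ≠ 0 := by
    simp [hε.ne', hτ']
  obtain ⟨U, hWU, hU, hle⟩ := W.exists_isOpen_le_add (nu ι d) hε'
  have h := key_open μ τ _ hτ hτ' m (fun η hη => moment_bound η hη μ Q hQ m H hH) hU
  calc ∫⁻ s, sl W s ∂μ ≤ ∫⁻ s, sl U s ∂μ :=
        lintegral_mono fun s => measure_mono fun X hX => hWU hX
    _ ≤ τ * (nu ι d W + ε / τ) + τ⁻¹ ^ m * (H ^ m * μ univ) := h.trans (by gcongr)
    _ = _ := by
        rw [mul_add, ENNReal.mul_div_cancel hτ hτ']; ring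

theorem frost_int (hd : 1 ≤ d) (μ : Measure (Ed d)) (j : ℕ) (z : Fin d → ℤ)
    (hQ : μ (cell j z)ᶜ = 0) (φ : ℝ≥0∞) (β m b : ℕ) (hβ : m + b + 1 ≤ β) (hm : m ≤ d)
    (hφ : ∀ i z', μ (cell (j + i) z') ≤ φ * 2⁻¹ ^ (β * i)) (c : Ed d) (hc : c ∈ cell j z)
    (V : Submodule ℝ (Ed d)) (hV : Module.finrank ℝ V ≤ m) :
    ∫⁻ s, (ENNReal.ofReal (dsub V (s - c)))⁻¹ ^ b ∂μ ≤ φ * 2 ^ (5 * d + (j + 1) * b + 1) := by
  let S : ℕ → Set (Ed d) := fun i =>
    {s | ‖s - c‖ ≤ (1 / 2) ^ j ∧ dsub V (s - c) ≤ (1 / 2) ^ (j + i)}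
  have hSm : ∀ i, MeasurableSet (S i) := fun i =>
    (measurableSet_le (f := fun s : Ed d => ‖s - c‖) (by fun_prop) measurable_const).inter
      (measurableSet_le ((continuous_dsub V).comp (continuous_id.sub continuous_const)).measurable
        measurable_const)
  have hpt : ∀ᵐ s ∂μ, (ENNReal.ofReal (dsub V (s - c)))⁻¹ ^ b ≤
      ∑' i, (S i).indicator (fun _ => (2 : ℝ≥0∞) ^ ((j + i + 1) * b)) s := by
    have : ∀ᵐ s ∂μ, s ∈ cell j z := hQ
    filter_upwards [this] with s hs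
    have h0 : ‖s - c‖ ≤ (1 / 2) ^ j := cell_diam hd (hs.trans hc.symm)
    by_cases hall : ∀ i, s ∈ S i
    · have : ∑' i, (S i).indicator (fun _ => (2 : ℝ≥0∞) ^ ((j + i + 1) * b)) s = ⊤ := by
        rw [eq_top_iff, ← ENNReal.tsum_const_eq_top_of_ne_zero (α := ℕ) one_ne_zero]
        apply ENNReal.tsum_le_tsum
        intro i
        rw [indicator_of_mem (hall i)]
        exact one_le_pow₀ (by norm_num)
      rw [this]; exact le_top
    · push Not at hall
      classical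
      have hi0 : Nat.find hall ≠ 0 := by
        intro h
        have := Nat.find_spec hall
        rw [h] at this
        exact this ⟨h0, (dsub_le _ _).trans h0⟩
      obtain ⟨i, hi⟩ := Nat.exists_eq_succ_of_ne_zero hi0
      have h1 : s ∈ S i := by
        by_contra h
        have := Nat.find_min' hall h
        omega
      have h2 : (1 / 2 : ℝ) ^ (j + i + 1) < dsub V (s - c) := by
        have := Nat.find_spec hall
        rw [hi] at this
        by_contra h
        exact this ⟨h0, not_lt.1 h⟩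
      refine le_trans ?_ (ENNReal.le_tsum i)
      rw [indicator_of_mem h1, pow_mul]
      gcongr
      rw [ENNReal.inv_le_iff_inv_le, ENNReal.inv_pow]
      refine le_trans (le_of_eq ?_) (ENNReal.ofReal_le_ofReal h2.le)
      rw [ENNReal.ofReal_pow (by norm_num), one_div, ENNReal.ofReal_inv_of_pos (by norm_num)]
      simp
  refine (lintegral_mono_ae hpt).trans ?_
  rw [lintegral_tsum fun i => (measurable_const.indicator (hSm i)).aemeasurable]
  calc ∑' i, ∫⁻ s, (S i).indicator (fun _ => (2 : ℝ≥0∞) ^ ((j + i + 1) * b)) s ∂μ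
      ≤ ∑' i : ℕ, φ * 2 ^ (5 * d + (j + 1) * b) * 2⁻¹ ^ i := by
        apply ENNReal.tsum_le_tsum
        intro i
        rw [lintegral_indicator_const (hSm i)]
        have h1 := slab_mass hd μ j i _ (hφ i) V hV hm c
        obtain ⟨e, he⟩ := Nat.exists_eq_add_of_le hβ
        have h2 : (2 : ℝ≥0∞) * 2⁻¹ = 1 := ENNReal.mul_inv_cancel (by norm_num) (by norm_num)
        calc _ ≤ 2 ^ ((j + i + 1) * b) * (φ * 2⁻¹ ^ (β * i) * 2 ^ (5 * d + i * m)) := by gcongr
          _ = φ * 2 ^ (5 * d + (j + 1) * b) * 2⁻¹ ^ i * (2 * 2⁻¹) ^ (i * (m + b)) *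
              2⁻¹ ^ (e * i) := by
              rw [he, mul_pow]; ring
          _ ≤ φ * 2 ^ (5 * d + (j + 1) * b) * 2⁻¹ ^ i * (2 * 2⁻¹) ^ (i * (m + b)) * 1 := by
              gcongr
              exact pow_le_one₀ zero_le (by norm_num)
          _ = _ := by rw [h2]; simp
    _ = _ := by
        rw [ENNReal.tsum_mul_left, ENNReal.tsum_geometric, ENNReal.one_sub_inv_two, inv_inv,
          pow_succ, mul_assoc]

end Vale.Agent.P309
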