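import Vale.Agent.P309.Main
import Vale.Agent.P309.Defs

namespace Vale.Agent.P309

open MeasureTheory ProbabilityTheory Set Metric Function
open scoped ENNReal RealInnerProductSpace NNReal

variable {d N : ℕ} {Ω : Type} [MeasurableSpace Ω]

abbrev Cfg (N : ℕ) : Type := Fin N × ℕ × Bool

noncomputable def adv (L : Learner d N Ω) (n : ℕ) (c : Cfg N) (p : Ω × Ed d × ℝ) : Cfg N :=
  if c.2.2 = true then c else ((L.step n c.1 p).1, n + 1, (L.step n c.1 p).2)

noncomputable def rf (L : Learner d N Ω) (ω : Ω) (n : ℕ) (c : Cfg N) (x : ℕ → Ed d) (y : ℕ → ℝ) :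
    ℕ → Cfg N
  | 0 => c
  | j + 1 => adv L (n + j) (rf L ω n c x y j) (ω, x (n + j), y (n + j))

theorem run_eq (L : Learner d N Ω) (ω : Ω) (s : Ed d) (x : ℕ → Ed d) (n : ℕ) :
    L.run ω s x n = rf L ω 0 ((L.init ω).1, 0, (L.init ω).2) x (fun i => ⟪x i, s⟫) n := by
  induction n with
  | zero => rfl
  | succ n ih => rw [Learner.run, rf, ← ih, adv, zero_add]

theorem rf_add (L : Learner d N Ω) (ω : Ω) (n : ℕ) (c : Cfg N) (x : ℕ → Ed d) (y : ℕ → ℝ)
    (a b : ℕ) : rf L ω n c x y (a + b) = rf L ω (n + a) (rf L ω n c x y a) x y b := by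
  induction b with
  | zero => rfl
  | succ b ih => rw [← add_assoc, rf, rf, ih, add_assoc]

theorem rf_congr (L : Learner d N Ω) (ω : Ω) (n : ℕ) (c : Cfg N) {x x' : ℕ → Ed d} {y y' : ℕ → ℝ}
    (j : ℕ) (h : ∀ i, n ≤ i → i < n + j → x i = x' i ∧ y i = y' i) :
    rf L ω n c x y j = rf L ω n c x' y' j := by
  induction j with
  | zero => rfl
  | succ j ih =>
    rw [rf, rf, ih fun i h1 h2 => h i h1 (by omega), (h (n + j) (by omega) (by omega)).1,
      (h (n + j) (by omega) (by omega)).2]

theorem rf_le (L : Learner d N Ω) (ω : Ω) (n : ℕ) (c : Cfg N) (x : ℕ → Ed d) (y : ℕ → ℝ) (T : ℕ)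
    (hc : c.2.1 ≤ T) (j : ℕ) (hj : n + j ≤ T) : (rf L ω n c x y j).2.1 ≤ T := by
  induction j with
  | zero => exact hc
  | succ j ih =>
    rw [rf, adv]
    split_ifs
    · exact ih (by omega)
    · exact hj

theorem meas_sel {α β κ : Type} [MeasurableSpace α] [MeasurableSpace β] [MeasurableSpace κ]
    [Countable κ] [MeasurableSingletonClass κ] {c : α → κ} (hc : Measurable c) {g : κ → α → β}
    (hg : ∀ w, Measurable (g w)) : Measurable fun a => g (c a) a :=
  (measurable_from_prod_countable_right (f := fun p : κ × α => g p.1 p.2) hg).comp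
    (hc.prodMk measurable_id)

theorem measurable_adv (L : Learner d N Ω) (n : ℕ) (c : Cfg N) : Measurable (adv L n c) := by
  unfold adv
  split_ifs
  · exact measurable_const
  · exact (L.step_meas n c.1).fst.prodMk (measurable_const.prodMk (L.step_meas n c.1).snd)

theorem measurable_rf (L : Learner d N Ω) {α : Type} [MeasurableSpace α] {ω : α → Ω}
    (hω : Measurable ω) (n : ℕ) {c : α → Cfg N} (hc : Measurable c) {x : α → ℕ → Ed d}
    (hx : Measurable x) {y : α → ℕ → ℝ} (hy : Measurable y) (j : ℕ) :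
    Measurable fun a => rf L (ω a) n (c a) (x a) (y a) j := by
  induction j with
  | zero => exact hc
  | succ j ih =>
    simp only [rf]
    exact meas_sel ih (g := fun w a => adv L (n + j) w (ω a, x a (n + j), y a (n + j))) fun w =>
      (measurable_adv L _ w).comp (hω.prodMk (((measurable_pi_apply _).comp hx).prodMk
        ((measurable_pi_apply _).comp hy)))

noncomputable def hit (L : Learner d N Ω) (ω : Ω) (ε : ℝ) (c : Cfg N) (s : Ed d) : ℝ≥0∞ :=
  (closedBall (L.out c.2.1 c.1 ω : Ed d) ε).indicator 1 s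

noncomputable def fin (L : Learner d N Ω) (ω : Ω) (ε : ℝ) (n : ℕ) (c : Cfg N) (j : ℕ) (s : Ed d)
    (x : ℕ → Ed d) : ℝ≥0∞ :=
  hit L ω ε (rf L ω n c x (fun i => ⟪x i, s⟫) j) s

theorem measurable_fin (L : Learner d N Ω) (ω : Ω) (ε : ℝ) (n : ℕ) (c : Cfg N) (j : ℕ)
    {α : Type} [MeasurableSpace α] {s : α → Ed d} (hs : Measurable s) {x : α → ℕ → Ed d}
    (hx : Measurable x) : Measurable fun a => fin L ω ε n c j (s a) (x a) := by
  unfold fin
  refine meas_sel (measurable_rf L measurable_const n measurable_const hx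
    (y := fun a i => ⟪x a i, s a⟫) ?_ j) (g := fun w a => hit L ω ε w (s a)) fun w => ?_
  · exact measurable_pi_lambda _ fun i => ((measurable_pi_apply i).comp hx).inner hs
  · exact (measurable_one.indicator measurableSet_closedBall).comp hs

noncomputable def Val (L : Learner d N Ω) (ω : Ω) (ε : ℝ) (T n : ℕ) (c : Cfg N) (s : Ed d) :
    ℝ≥0∞ :=
  lmarginal (fun _ : ℕ => gam d) (Finset.Ico n T) (fin L ω ε n c (T - n) s) 0

theorem measurable_Val (L : Learner d N Ω) (ω : Ω) (ε : ℝ) (T n : ℕ) (c : Cfg N) :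
    Measurable (Val L ω ε T n c) := by
  unfold Val lmarginal
  exact (measurable_fin L ω ε n c (T - n) measurable_fst
    (measurable_updateFinset.comp measurable_snd)).lintegral_prod_right'

def cfgs (N T : ℕ) : Finset (Cfg N) := Finset.univ ×ˢ (Finset.range (T + 1) ×ˢ Finset.univ)

theorem mem_cfgs {T : ℕ} {c : Cfg N} : c ∈ cfgs N T ↔ c.2.1 ≤ T := by
  simp [cfgs, Nat.lt_succ_iff]

theorem card_cfgs (N T : ℕ) : (cfgs N T).card = N * ((T + 1) * 2) := by simp [cfgs]

theorem good_Val (L : Learner d N Ω) (ω : Ω) (ε : ℝ) (T k : ℕ) (hk : 1 ≤ k) (t : ℕ) :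
    ∀ (n : ℕ) (c : Cfg N), c ∈ cfgs N T → n ≤ T → T - n ≤ t * k →
      Good d k ε (cfgs N T) t (Val L ω ε T n c) := by
  have hbase : ∀ t (c : Cfg N), Good d k ε (cfgs N T) t (Val L ω ε T T c) := by
    intro t c
    refine Good.base t _ (L.out c.2.1 c.1 ω) (measurable_Val L ω ε T T c) fun s => ?_
    unfold Val
    simp only [Finset.Ico_self, lmarginal_empty, Nat.sub_self]
    exact le_rfl
  induction t with
  | zero =>
    intro n c _ h1 h2
    rw [show n = T by omega]
    exact hbase 0 c
  | succ t ih =>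
    intro n c hc h1 h2
    rcases h1.eq_or_lt with rfl | h1
    · exact hbase _ c
    set a := min k (T - n) with ha
    have ha1 : 1 ≤ a := by omega
    have ha2 : n + a ≤ T := by omega
    haveI : Nonempty (Finset.Ico n (n + a)) := ⟨⟨n, by simp; omega⟩⟩
    refine Good.step t _ (measurable_Val L ω ε T n c) (Finset.Ico n (n + a)) (by simp; omega)
      (fun p => rf L ω n c (updateFinset 0 (Finset.Ico n (n + a)) p.1)
        (updateFinset 0 (Finset.Ico n (n + a)) p.2) a) ?_ ?_ (fun w => Val L ω ε T (n + a) w) ?_ ?_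
    · exact measurable_rf L measurable_const n measurable_const
        (measurable_updateFinset.comp measurable_fst)
        (measurable_updateFinset.comp measurable_snd) a
    · exact fun p => mem_cfgs.2 (rf_le L ω n c _ _ T (mem_cfgs.1 hc) a ha2)
    · intro w hw
      refine ih (n + a) w hw ha2 ?_
      rw [add_mul] at h2
      omega
    · intro s
      apply le_of_eq
      unfold Val
      have hmf : Measurable (fin L ω ε n c (T - n) s) :=
        measurable_fin L ω ε n c (T - n) measurable_const measurable_id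
      rw [← Finset.Ico_union_Ico_eq_Ico (Nat.le_add_right n a) ha2,
        lmarginal_union _ _ hmf
          (Finset.Ico_disjoint_Ico_consecutive n (n + a) T)]
      unfold lmarginal
      apply lintegral_congr
      intro X
      apply lintegral_congr
      intro Y
      unfold fin
      congr 1
      rw [show T - n = a + (T - (n + a)) by omega, rf_add]
      have e1 : rf L ω n c (updateFinset (updateFinset 0 (Finset.Ico n (n + a)) X)
          (Finset.Ico (n + a) T) Y) (fun i => ⟪updateFinset (updateFinset (0 : ℕ → Ed d)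
          (Finset.Ico n (n + a)) X) (Finset.Ico (n + a) T) Y i, s⟫) a = rf L ω n c (updateFinset 0 (Finset.Ico n (n + a)) X)
          (updateFinset 0 (Finset.Ico n (n + a)) (lab X s)) a := by
        apply rf_congr
        intro i h3 h4
        have m1 : i ∈ Finset.Ico n (n + a) := by simp; omega
        have m2 : i ∉ Finset.Ico (n + a) T := by simp; omega
        simp [updateFinset, m1, m2, lab]
      rw [e1]
      apply rf_congr
      intro i h3 h4
      have m2 : i ∈ Finset.Ico (n + a) T := by simp; omega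
      simp [updateFinset, m2]

theorem init_bound (hd : 2 ≤ d) (k : ℕ) (F : Ed d → ℝ≥0∞) (hF1 : ∀ s, F s ≤ 1) (b : ℝ≥0∞)
    (hb : ∀ (μ : Measure (Ed d)) [IsFiniteMeasure μ] (z : Fin d → ℤ), μ (cell 0 z)ᶜ = 0 →
      μ ≤ (2 ^ (5 * d + k) * μ univ) • sig d → ∫⁻ s, F s ∂μ ≤ b * μ univ) :
    ∫⁻ s, F s ∂sig d ≤ b + 2⁻¹ ^ k := by
  haveI := sph_prob (d := d) (by omega)
  haveI : IsProbabilityMeasure (sig d) :=
    Measure.isProbabilityMeasure_map measurable_subtype_coe.aemeasurable
  let Z : Set (Fin d → ℤ) := {z | sig d (cell 0 z) ≤ 2⁻¹ ^ (5 * d + k)}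
  have hZ : MeasurableSet (idx (d := d) 0 ⁻¹' Z) := measurable_idx 0 (Set.to_countable Z).measurableSet
  let μL := (sig d).restrict (idx 0 ⁻¹' Z)
  have hL : μL univ ≤ 2⁻¹ ^ k := by
    have h1 := slab_mass (by omega) μL 0 0 (2⁻¹ ^ (5 * d + k)) (fun z => by
      simp only [μL]
      rw [Measure.restrict_apply (measurableSet_cell _ _)]
      by_cases hz : z ∈ Z
      · exact (measure_mono inter_subset_left).trans hz
      · rw [show cell (0 + 0) z ∩ idx 0 ⁻¹' Z = ∅ from eq_empty_of_forall_notMem fun s hs =>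
          hz (by rw [← show idx 0 s = z from hs.1]; exact hs.2)]
        simp) ⊥ (m := 0) (by simp) (by omega) 0
    have h2 : μL (closedBall (0 : Ed d) 1)ᶜ = 0 := by
      refine le_antisymm ((Measure.restrict_le_self _).trans (le_of_eq ?_)) zero_le
      unfold sig
      rw [Measure.map_apply measurable_subtype_coe measurableSet_closedBall.compl]
      rw [show (Subtype.val ⁻¹' (closedBall (0 : Ed d) 1)ᶜ : Set (sphere (0 : Ed d) 1)) = ∅ from
        eq_empty_of_forall_notMem fun s hs => hs (sphere_subset_closedBall s.2)]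
      simp
    rw [← measure_add_measure_compl (measurableSet_closedBall (x := (0 : Ed d)) (ε := 1)), h2,
      add_zero]
    refine (measure_mono ?_).trans (h1.trans (le_of_eq ?_))
    · intro s hs
      rw [mem_closedBall_zero_iff] at hs
      simp only [mem_setOf_eq, sub_zero, pow_zero, add_zero]
      exact ⟨hs, (dsub_le _ _).trans hs⟩
    · rw [zero_mul, add_zero, pow_add, mul_right_comm, mul_comm (2⁻¹ ^ _), two_pow_inv, one_mul]
  have hdis : Pairwise (Function.onFun Disjoint (cell (d := d) 0)) :=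
    fun a b hab => Disjoint.preimage _ (disjoint_singleton.2 hab)
  have hu : ⋃ z, cell (d := d) 0 z = univ := by
    rw [eq_univ_iff_forall]
    exact fun s => mem_iUnion.2 ⟨idx 0 s, rfl⟩
  have key : ∀ z, ∫⁻ s in cell 0 z, F s ∂sig d ≤ b * sig d (cell 0 z) + μL (cell 0 z) := by
    intro z
    by_cases hz : z ∈ Z
    · refine le_trans ?_ le_add_self
      simp only [μL]
      rw [Measure.restrict_apply (measurableSet_cell _ _), inter_eq_left.2 (fun s hs => by
        rw [mem_preimage, show idx 0 s = z from hs]; exact hz)]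
      calc _ ≤ ∫⁻ _s in cell 0 z, 1 ∂sig d := lintegral_mono hF1
        _ = _ := by simp
    · refine le_trans ?_ le_self_add
      have := hb ((sig d).restrict (cell 0 z)) z (by
        rw [Measure.restrict_apply (measurableSet_cell _ _).compl]; simp) (by
        intro A
        refine (Measure.restrict_le_self A).trans ?_
        simp only [Measure.smul_apply, smul_eq_mul, Measure.restrict_apply_univ]
        apply le_mul_of_one_le_left'
        rw [← two_pow_inv (5 * d + k)]
        gcongr
        exact (not_le.1 hz).le)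
      rwa [Measure.restrict_apply_univ] at this
  have e1 : ∫⁻ s, F s ∂sig d = ∑' z, ∫⁻ s in cell 0 z, F s ∂sig d := by
    rw [← lintegral_iUnion (measurableSet_cell 0) hdis, hu, Measure.restrict_univ]
  rw [e1]
  refine (ENNReal.tsum_le_tsum key).trans ?_
  rw [ENNReal.tsum_add, ENNReal.tsum_mul_left, ← measure_iUnion hdis (measurableSet_cell 0),
    ← measure_iUnion hdis (measurableSet_cell 0), hu, measure_univ, mul_one]
  gcongr

theorem chord_le {u s : Ed d} (hu : ‖u‖ = 1) (hs : ‖s‖ = 1) {ε : ℝ}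
    (h : Real.arccos ⟪u, s⟫ ≤ ε) : s ∈ closedBall u ε := by
  rw [mem_closedBall, dist_eq_norm]
  have h1 : |⟪u, s⟫| ≤ 1 := by simpa [hu, hs] using abs_real_inner_le_norm u s
  have h2 := Real.one_sub_sq_div_two_le_cos (x := Real.arccos ⟪u, s⟫)
  rw [Real.cos_arccos (abs_le.1 h1).1 (abs_le.1 h1).2] at h2
  have h3 : ‖s - u‖ ^ 2 = 2 - 2 * ⟪u, s⟫ := by
    rw [norm_sub_sq_real, hu, hs, real_inner_comm]; ring
  have h4 := Real.arccos_nonneg ⟪u, s⟫
  have h5 : ‖s - u‖ ^ 2 ≤ ε ^ 2 := by nlinarith
  exact (pow_le_pow_iff_left₀ (norm_nonneg _) (by linarith) (by norm_num)).1 h5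

theorem success_le (hd : 2 ≤ d) (L : Learner d N Ω) (P : Measure Ω) [IsProbabilityMeasure P]
    (T : ℕ) (ε : ℝ) (B : ℝ≥0∞)
    (hB : ∀ ω, ∫⁻ s, Val L ω ε T 0 ((L.init ω).1, 0, (L.init ω).2) s ∂sig d ≤ B) :
    L.success P T ε ≤ B := by
  haveI := sph_prob (d := d) (by omega)
  let f : Ω × sphere (0 : Ed d) 1 × (ℕ → Ed d) → ℝ≥0∞ := fun q =>
    fin L q.1 ε 0 ((L.init q.1).1, 0, (L.init q.1).2) T q.2.1 q.2.2
  have hs : Measurable fun q : Ω × sphere (0 : Ed d) 1 × (ℕ → Ed d) => (q.2.1 : Ed d) :=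
    measurable_subtype_coe.comp measurable_snd.fst
  have hf : Measurable f := by
    refine meas_sel (measurable_rf L measurable_fst 0
      (c := fun q : Ω × sphere (0 : Ed d) 1 × (ℕ → Ed d) => ((L.init q.1).1, 0, (L.init q.1).2))
      ((L.init_meas.comp measurable_fst).fst.prodMk (measurable_const.prodMk
        (L.init_meas.comp measurable_fst).snd)) measurable_snd.snd
      (y := fun q i => ⟪q.2.2 i, (q.2.1 : Ed d)⟫) ?_ T)
      (g := fun w q => hit L q.1 ε w q.2.1) fun w => ?_
    · exact measurable_pi_lambda _ fun i => ((measurable_pi_apply i).comp measurable_snd.snd).inner hs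
    · have : MeasurableSet {q : Ω × sphere (0 : Ed d) 1 × (ℕ → Ed d) |
          dist (q.2.1 : Ed d) (L.out w.2.1 w.1 q.1) ≤ ε} :=
        measurableSet_le (hs.dist (measurable_subtype_coe.comp
          ((L.out_meas _ _).comp measurable_fst))) measurable_const
      exact measurable_one.indicator this
  unfold Learner.success
  have h1 := mul_meas_ge_le_lintegral (μ := P.prod ((sph d).prod
    (Measure.infinitePi fun _ : ℕ => gam d))) hf 1
  rw [one_mul] at h1
  refine le_trans (measure_mono ?_) (h1.trans ?_)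
  · intro q hq
    simp only [mem_setOf_eq, f, fin, hit] at hq ⊢
    rw [← run_eq, indicator_of_mem (chord_le (by simp) (by simp) hq)]
    exact le_rfl
  rw [lintegral_prod _ hf.aemeasurable]
  calc _ ≤ ∫⁻ _ω, B ∂P := by
        apply lintegral_mono
        intro ω
        refine le_trans (le_of_eq ?_) (hB ω)
        simp only
        rw [lintegral_prod (fun y => f (ω, y)) (hf.comp measurable_prodMk_left).aemeasurable]
        unfold sig
        rw [lintegral_map (measurable_Val L ω ε T 0 _) measurable_subtype_coe]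
        apply lintegral_congr
        intro s
        unfold Val lmarginal
        rw [← lintegral_restrict_infinitePi (fun _ : ℕ => gam d)
          (measurable_fin L ω ε 0 _ (T - 0) measurable_const measurable_updateFinset)]
        apply lintegral_congr
        intro x
        simp only [comp, f, fin, Nat.sub_zero]
        congr 1
        apply rf_congr
        intro i h3 h4
        have m2 : i < T := by omega
        simp [updateFinset, m2]
    _ = B := by simp

theorem trivial_bound (hd : 2 ≤ d) (L : Learner d N Ω) (ω : Ω) (T : ℕ) (ε : ℝ) (hε : 0 < ε)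
    (c : Cfg N) (hc : c ∈ cfgs N T) :
    ∫⁻ s, Val L ω ε T 0 c s ∂sig d ≤ (N * ((T + 1) * 2) : ℕ) * ENNReal.ofReal ((8 * ε) ^ (d - 1)) := by
  have h1 : ∀ s, Val L ω ε T 0 c s ≤ ∑ w ∈ cfgs N T, hit L ω ε w s := by
    intro s
    unfold Val lmarginal
    calc _ ≤ ∫⁻ _y, ∑ w ∈ cfgs N T, hit L ω ε w s
          ∂Measure.pi fun _ : Finset.Ico 0 T => gam d := by
          apply lintegral_mono
          intro y
          exact Finset.single_le_sum (f := fun w => hit L ω ε w s) (fun _ _ => zero_le)
            (mem_cfgs.2 (rf_le L ω 0 c _ _ T (mem_cfgs.1 hc) _ (by omega)))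
      _ = _ := by simp
  refine (lintegral_mono h1).trans ?_
  rw [lintegral_finset_sum (f := fun w s => hit L ω ε w s) _
    fun w _ => measurable_one.indicator measurableSet_closedBall, ← card_cfgs, ← nsmul_eq_mul]
  apply Finset.sum_le_card_nsmul
  intro w _
  unfold hit
  rw [lintegral_indicator_one measurableSet_closedBall]
  exact sig_ball hd _ ε hε

theorem block_bound (hd : 2 ≤ d) (L : Learner d N Ω) (ω : Ω) (T : ℕ) (ε : ℝ) (hε : 0 < ε)
    (c : Cfg N) (hc : c ∈ cfgs N T) {k m β g αm t : ℕ} (hk : 1 ≤ k) (ht : T ≤ t * k)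
    (hβ : m + 2 * k + 1 ≤ β) (hβ2 : 2 * β ≤ d - 1) (hm1 : 1 ≤ m)
    (hS : N * ((T + 1) * 2) ≤ 2 ^ (g * m)) (hL : αm + 3 * d + 1 ≤ 2 ^ k)
    (hα : 5 * d + k + t * (10 * d + 33 * k + 4 + 2 * g) ≤ αm) :
    ∫⁻ s, Val L ω ε T 0 c s ∂sig d ≤ t * (5 * 2⁻¹ ^ k) + 2 ^ (2 * αm + 3 * d) *
        ENNReal.ofReal ((8 * ε) ^ (d - 1)) + 2⁻¹ ^ k := by
  have hG := good_Val L ω ε T k hk t 0 c hc (by omega) (by omega)
  refine init_bound hd k _ hG.le_one _ fun μ _ z hQ hden => ?_
  exact main_bound hd hβ hβ2 hm1 (by rwa [card_cfgs]) hL hε hG μ 0 z (5 * d + k) hQ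
    (by simpa using hden) hα

end Vale.Agent.P309
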