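import Vale.Agent.P309.Block

namespace Vale.Agent.P309

open MeasureTheory ProbabilityTheory Set Metric
open scoped ENNReal RealInnerProductSpace NNReal

variable {d : ℕ}

theorem level_bound (hd : 2 ≤ d) {β α J j : ℕ} (hβ : 2 * β ≤ d - 1) (μ : Measure (Ed d))
    [IsFiniteMeasure μ] (h0 : μ univ ≠ 0) (hden : μ ≤ (2 ^ (α + β * J) * μ univ) • sig d)
    (z : Fin d → ℤ) (h : μ univ * 2 ^ (β * J) ≤ μ (cell j z) * 2 ^ (β * j)) :
    β * j ≤ α + 3 * d := by
  have h1 := hden (cell j z)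
  simp only [Measure.smul_apply, smul_eq_mul] at h1
  have h2 := sig_cell hd j z
  have h3 : (μ univ * 2 ^ (β * J)) * 2 ^ (j * (d - 1)) ≤
      (μ univ * 2 ^ (β * J)) * 2 ^ (α + β * j + 3 * (d - 1)) := by
    calc _ ≤ (2 ^ (α + β * J) * μ univ * sig d (cell j z)) * 2 ^ (β * j) * 2 ^ (j * (d - 1)) := by
          exact mul_le_mul_left (h.trans (mul_le_mul_left h1 _)) _
      _ = (μ univ * 2 ^ (β * J)) * (2 ^ (α + β * j) * (sig d (cell j z) * 2 ^ (j * (d - 1)))) := by
          ring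
      _ ≤ (μ univ * 2 ^ (β * J)) * (2 ^ (α + β * j) * 2 ^ (3 * (d - 1))) := by gcongr
      _ = _ := by ring
  have h4 := (ENNReal.mul_le_mul_iff_right (by simp [h0])
    (ENNReal.mul_ne_top (measure_ne_top _ _) (by simp))).1 h3
  have h5 : 2 ^ (j * (d - 1)) ≤ 2 ^ (α + β * j + 3 * (d - 1)) := by exact_mod_cast h4
  have h6 := (Nat.pow_le_pow_iff_right (by norm_num)).1 h5
  have h7 : j * (2 * β) ≤ j * (d - 1) := by gcongr
  have h8 : j * (2 * β) = β * j + β * j := by ring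
  omega

theorem reveal (hd : 2 ≤ d) {β α J k L : ℕ} (hβ : 2 * β ≤ d - 1) (hβ1 : 1 ≤ β)
    (hL : α + 3 * d ≤ L) (hLk : L + 1 ≤ 2 ^ k) (μ : Measure (Ed d))
    [IsFiniteMeasure μ] (z0 : Fin d → ℤ) (hQ : μ (cell J z0)ᶜ = 0)
    (hden : μ ≤ (2 ^ (α + β * J) * μ univ) • sig d) (F : Ed d → ℝ≥0∞) (hF1 : ∀ s, F s ≤ 1)
    (b : ℝ≥0∞)
    (hb : ∀ (μ' : Measure (Ed d)) [IsFiniteMeasure μ'] (j : ℕ) (z : Fin d → ℤ), μ' univ ≠ 0 →
      μ' (cell j z)ᶜ = 0 →
      (∀ i z', μ' (cell (j + i) z') ≤ 2 ^ (2 * k) * μ' univ * 2⁻¹ ^ (β * i)) →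
      μ' ≤ (2 ^ (α + 2 * k + β * j) * μ' univ) • sig d → ∫⁻ s, F s ∂μ' ≤ b * μ' univ) :
    ∫⁻ s, F s ∂μ ≤ (b + 2⁻¹ ^ k) * μ univ := by
  classical
  by_cases h0 : μ univ = 0
  · rw [Measure.measure_univ_eq_zero.1 h0]; simp
  let P : Ed d → ℕ → Prop := fun s j => μ univ * 2 ^ (β * J) ≤ μ (cell j (idx j s)) * 2 ^ (β * j)
  have hPL : ∀ s j, P s j → j ≤ L := fun s j h =>
    le_trans (Nat.le_mul_of_pos_left j hβ1) ((level_bound hd hβ μ h0 hden _ h).trans hL)
  have hPm : ∀ j, MeasurableSet {s | P s j} := fun j =>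
    measurable_idx j (Set.to_countable
      {z | μ univ * 2 ^ (β * J) ≤ μ (cell j z) * 2 ^ (β * j)}).measurableSet
  let js : Ed d → ℕ := fun s => Nat.findGreatest (P s) L
  have hjs : Measurable js := measurable_findGreatest fun j _ => hPm j
  let pc : Fin (L + 1) × (Fin d → ℤ) → Set (Ed d) := fun p => js ⁻¹' {p.1.val} ∩ cell p.1 p.2
  have hpm : ∀ p, MeasurableSet (pc p) := fun p =>
    (hjs (measurableSet_singleton _)).inter (measurableSet_cell _ _)
  have hpd : Pairwise (Function.onFun Disjoint pc) := by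
    rintro ⟨j, z⟩ ⟨j', z'⟩ hne
    rw [Function.onFun, Set.disjoint_left]
    rintro s ⟨h1, h2⟩ ⟨h3, h4⟩
    have e : j = j' := Fin.ext (h1.symm.trans h3)
    subst e
    exact hne (by rw [show z = z' from h2.symm.trans h4])
  have hpu : ⋃ p, pc p = univ := by
    rw [eq_univ_iff_forall]
    intro s
    exact mem_iUnion.2 ⟨(⟨js s, Nat.lt_succ_of_le (Nat.findGreatest_le L)⟩, idx (js s) s), rfl, rfl⟩
  have hPJ : ∀ s ∈ cell J z0, P s J := by
    intro s hs
    simp only [P]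
    rw [show idx J s = z0 from hs]
    refine mul_le_mul_left ?_ _
    rw [← measure_add_measure_compl (measurableSet_cell J z0), hQ, add_zero]
  have key : ∀ p, ∫⁻ s in pc p, F s ∂μ ≤ b * μ (pc p) + 2⁻¹ ^ (2 * k) * μ (cell p.1 p.2) := by
    rintro ⟨j, z⟩
    have triv : ∫⁻ s in pc (j, z), F s ∂μ ≤ μ (pc (j, z)) := by
      calc _ ≤ ∫⁻ _s in pc (j, z), 1 ∂μ := lintegral_mono hF1
        _ = _ := by simp
    by_cases hg : μ (cell j z) ≤ 2 ^ (2 * k) * μ (pc (j, z))
    swap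
    · refine triv.trans (le_trans ?_ le_add_self)
      calc μ (pc (j, z)) = 2⁻¹ ^ (2 * k) * (2 ^ (2 * k) * μ (pc (j, z))) := by
            rw [← mul_assoc, mul_comm (2⁻¹ ^ _), two_pow_inv, one_mul]
        _ ≤ _ := by gcongr; exact (not_le.1 hg).le
    by_cases hz : μ (pc (j, z)) = 0
    · exact (triv.trans hz.le).trans zero_le
    refine le_trans ?_ le_self_add
    have hne : (pc (j, z) ∩ cell J z0).Nonempty := by
      by_contra h
      rw [not_nonempty_iff_eq_empty] at h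
      apply hz
      refine measure_mono_null (fun s hs => ?_) hQ
      intro hs'
      have : s ∈ pc (j, z) ∩ cell J z0 := ⟨hs, hs'⟩
      rw [h] at this
      exact this
    obtain ⟨s, ⟨hs1, hs2⟩, hs3⟩ := hne
    have hPj : P s j := by
      have := Nat.findGreatest_spec (hPL s J (hPJ s hs3)) (hPJ s hs3)
      rw [show Nat.findGreatest (P s) L = j from hs1] at this
      exact this
    simp only [P] at hPj
    rw [show idx j s = z from hs2] at hPj
    have hT : μ univ * 2 ^ (β * J) ≤ 2 ^ (2 * k) * μ (pc (j, z)) * 2 ^ (β * j) :=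
      hPj.trans (by gcongr)
    have := hb (μ.restrict (pc (j, z))) j z (by rwa [Measure.restrict_apply_univ]) ?_ ?_ ?_
    · rwa [Measure.restrict_apply_univ] at this
    · rw [Measure.restrict_apply (measurableSet_cell _ _).compl]
      rw [show (cell (j : ℕ) z)ᶜ ∩ pc (j, z) = ∅ from
        eq_empty_of_forall_notMem fun s hs => hs.1 hs.2.2]
      simp
    · intro i z'
      rw [Measure.restrict_apply (measurableSet_cell _ _), Measure.restrict_apply_univ]
      rcases Nat.eq_zero_or_pos i with rfl | hi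
      · rw [mul_zero, pow_zero, mul_one]
        exact (measure_mono inter_subset_right).trans
          (le_mul_of_one_le_left' (one_le_pow₀ (by norm_num)))
      rcases (cell (j + i) z' ∩ pc (j, z)).eq_empty_or_nonempty with h | ⟨s', h1, h2, h3⟩
      · rw [h]; simp
      have hn : ¬ P s' (j + i) := by
        intro hP
        have h4 : Nat.findGreatest (P s') L = j := h2
        exact Nat.findGreatest_is_greatest (by omega) (hPL s' _ hP) hP
      simp only [P] at hn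
      rw [show idx (j + i) s' = z' from h1] at hn
      have h5 := (not_le.1 hn).le.trans hT
      refine (measure_mono inter_subset_left).trans ?_
      calc μ (cell (j + i) z') = μ (cell (j + i) z') * 2 ^ (β * (j + i)) * 2⁻¹ ^ (β * (j + i)) := by
            rw [mul_assoc, two_pow_inv, mul_one]
        _ ≤ 2 ^ (2 * k) * μ (pc (j, z)) * 2 ^ (β * j) * 2⁻¹ ^ (β * (j + i)) := by gcongr
        _ = 2 ^ (2 * k) * μ (pc (j, z)) * 2⁻¹ ^ (β * i) * (2 * 2⁻¹) ^ (β * j) := by
            rw [mul_pow]; ring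
        _ = _ := by rw [two_inv, one_pow, mul_one]
    · intro A
      refine (Measure.restrict_le_self A).trans ((hden A).trans ?_)
      simp only [Measure.smul_apply, smul_eq_mul, Measure.restrict_apply_univ]
      gcongr ?_ * _
      calc _ = 2 ^ α * (μ univ * 2 ^ (β * J)) := by ring
        _ ≤ 2 ^ α * (2 ^ (2 * k) * μ (pc (j, z)) * 2 ^ (β * j)) := by gcongr
        _ = _ := by ring
  have e1 : ∫⁻ s, F s ∂μ = ∑' p, ∫⁻ s in pc p, F s ∂μ := by
    rw [← lintegral_iUnion hpm hpd, hpu, Measure.restrict_univ]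
  have e2 : ∑' p, μ (pc p) = μ univ := by rw [← measure_iUnion hpd hpm, hpu]
  have e3 : ∀ j : ℕ, ∑' z, μ (cell j z) = μ univ := by
    intro j
    rw [← measure_iUnion (f := cell j)
      (fun a b hab => Disjoint.preimage _ (disjoint_singleton.2 hab)) (measurableSet_cell j)]
    congr 1
    rw [eq_univ_iff_forall]
    exact fun s => mem_iUnion.2 ⟨idx j s, rfl⟩
  rw [e1]
  refine (ENNReal.tsum_le_tsum key).trans ?_
  rw [ENNReal.tsum_add, ENNReal.tsum_mul_left, ENNReal.tsum_mul_left, e2, add_mul,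
    ENNReal.tsum_prod']
  simp only [e3, tsum_fintype, Finset.sum_const, Finset.card_univ, Fintype.card_fin, nsmul_eq_mul]
  refine add_le_add le_rfl ?_
  rw [← mul_assoc]
  gcongr
  have : ((L + 1 : ℕ) : ℝ≥0∞) ≤ 2 ^ k := by exact_mod_cast hLk
  calc _ ≤ 2⁻¹ ^ (2 * k) * (2 : ℝ≥0∞) ^ k := by gcongr
    _ = 2⁻¹ ^ k * (2 * 2⁻¹) ^ k := by rw [mul_pow]; ring
    _ = _ := by rw [two_inv, one_pow, mul_one]

/-- Success probabilities of processes with `t` blocks of at most `k` samples. -/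
inductive Good (d k : ℕ) (ε : ℝ) {κ : Type} [MeasurableSpace κ] (S : Finset κ) :
    ℕ → (Ed d → ℝ≥0∞) → Prop
  | base (t : ℕ) (F : Ed d → ℝ≥0∞) (c : Ed d) (hF : Measurable F)
      (h : ∀ s, F s ≤ (closedBall c ε).indicator 1 s) : Good d k ε S t F
  | step (t : ℕ) (F : Ed d → ℝ≥0∞) (hF : Measurable F) (ι : Type) [Fintype ι] [Nonempty ι]
      (hk : Fintype.card ι ≤ k) (φ : (ι → Ed d) × (ι → ℝ) → κ) (hφm : Measurable φ)
      (hφS : ∀ p, φ p ∈ S) (G : κ → Ed d → ℝ≥0∞) (hG : ∀ w ∈ S, Good d k ε S t (G w))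
      (h : ∀ s, F s ≤ ∫⁻ X, G (φ (X, lab X s)) s ∂Gm ι d) : Good d k ε S (t + 1) F

variable {k : ℕ} {ε : ℝ} {κ : Type} [MeasurableSpace κ] {S : Finset κ}

theorem Good.meas {t : ℕ} {F : Ed d → ℝ≥0∞} (h : Good d k ε S t F) : Measurable F := by
  cases h with
  | base _ _ _ hF _ => exact hF
  | step _ _ hF => exact hF

theorem Good.le_one {t : ℕ} {F : Ed d → ℝ≥0∞} (h : Good d k ε S t F) : ∀ s, F s ≤ 1 := by
  induction h with
  | base _ _ _ _ h => exact fun s => (h s).trans (indicator_le_self' (fun _ _ => zero_le) s)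
  | step t F hF ι hk φ hφm hφS G hG h ih =>
    intro s
    refine (h s).trans ?_
    calc _ ≤ ∫⁻ _X, 1 ∂Gm ι d := lintegral_mono fun X => ih _ (hφS _) s
      _ = 1 := by simp

theorem main_bound [MeasurableSingletonClass κ] (hd : 2 ≤ d) {m β g αm : ℕ}
    (hβ : m + 2 * k + 1 ≤ β) (hβ2 : 2 * β ≤ d - 1) (hm1 : 1 ≤ m) (hS : S.card ≤ 2 ^ (g * m))
    (hL : αm + 3 * d + 1 ≤ 2 ^ k) (hε : 0 < ε) {t : ℕ} {F : Ed d → ℝ≥0∞} (h : Good d k ε S t F) :
    ∀ (μ : Measure (Ed d)) [IsFiniteMeasure μ] (J : ℕ) (z : Fin d → ℤ) (α : ℕ),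
      μ (cell J z)ᶜ = 0 → μ ≤ (2 ^ (α + β * J) * μ univ) • sig d →
      α + t * (10 * d + 33 * k + 4 + 2 * g) ≤ αm →
      ∫⁻ s, F s ∂μ ≤ (t * (5 * 2⁻¹ ^ k) + 2 ^ (2 * αm + 3 * d) *
        ENNReal.ofReal ((8 * ε) ^ (d - 1))) * μ univ := by
  induction h with
  | base t F c hF h =>
    intro μ _ J z α hQ hden hα
    by_cases h0 : μ univ = 0
    · rw [Measure.measure_univ_eq_zero.1 h0]; simp
    have h1 := level_bound hd hβ2 μ h0 hden z (j := J) (by
      refine mul_le_mul_left ?_ _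
      rw [← measure_add_measure_compl (measurableSet_cell J z), hQ, add_zero])
    refine (lintegral_mono h).trans ?_
    rw [lintegral_indicator_one measurableSet_closedBall]
    refine (hden _).trans ?_
    simp only [Measure.smul_apply, smul_eq_mul]
    calc _ ≤ 2 ^ (2 * αm + 3 * d) * μ univ * ENNReal.ofReal ((8 * ε) ^ (d - 1)) := by
          refine mul_le_mul' (mul_le_mul_left ?_ _) (sig_ball hd c ε hε)
          exact pow_le_pow_right₀ (by norm_num) (by omega)
      _ = (2 ^ (2 * αm + 3 * d) * ENNReal.ofReal ((8 * ε) ^ (d - 1))) * μ univ := by ring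
      _ ≤ _ := by gcongr; exact le_add_self
  | step t F hF ι hk φ hφm hφS G hG h ih =>
    intro μ _ J z α hQ hden hα
    have hG1 : ∀ w ∈ S, ∀ s, G w s ≤ 1 := fun w hw => (hG w hw).le_one
    have hα' : α + (2 * k + 2 * (5 * d + 15 * k + 2 + g) + k) +
        t * (10 * d + 33 * k + 4 + 2 * g) ≤ αm := by
      rw [add_mul] at hα; omega
    refine (lintegral_mono h).trans ?_
    refine (reveal hd (α := α) (J := J) (k := k) (L := αm + 3 * d) hβ2 (by omega) (by omega) hL μ z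
      hQ hden _ ?_ (t * (5 * 2⁻¹ ^ k) + 2 ^ (2 * αm + 3 * d) *
        ENNReal.ofReal ((8 * ε) ^ (d - 1)) + 4 * 2⁻¹ ^ k) ?_).trans (le_of_eq ?_)
    · intro s
      calc _ ≤ ∫⁻ _X, 1 ∂Gm ι d := lintegral_mono fun X => hG1 _ (hφS _) s
        _ = 1 := by simp
    · intro μ' _ j z' h0 hQ' hF' hden'
      refine block (g := g) (by omega) hk hβ (by omega) hm1 μ' h0 j z' hQ' hF' _ hden' S hS φ hφm
        hφS G (fun w hw => (hG w hw).meas) hG1 _ ?_
      intro w hw μ'' _ hQ'' hden''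
      refine ih w hw μ'' j z' _ hQ'' ?_ hα'
      convert hden'' using 4
      ring
    · push_cast; ring

end Vale.Agent.P309
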