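import Vale.Agent.P309.Gauss

namespace Vale.Agent.P309

open MeasureTheory ProbabilityTheory Set Metric
open scoped ENNReal RealInnerProductSpace NNReal Pointwise

variable {d : ℕ}

theorem vol_slab (V : Submodule ℝ (Ed d)) {m : ℕ} (hV : Module.finrank ℝ V ≤ m) (hm : m ≤ d)
    {R ρ : ℝ} (hρ : 0 < ρ) (hR : ρ ≤ R) :
    volume {y : Ed d | ‖y‖ ≤ R ∧ dsub V y ≤ ρ} ≤
      ENNReal.ofReal (R ^ m * ρ ^ (d - m) * 2 ^ d) * volume (ball (0 : Ed d) 1) := by
  have hR0 : 0 < R := hρ.trans_le hR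
  let e := Submodule.prodEquivOfIsCompl V Vᗮ Submodule.isCompl_orthogonal_of_hasOrthogonalProjection
  let T0 : (V × Vᗮ) →ₗ[ℝ] (V × Vᗮ) := LinearMap.prodMap (R • LinearMap.id) (ρ • LinearMap.id)
  let T : Ed d →ₗ[ℝ] Ed d := (e : (V × Vᗮ) →ₗ[ℝ] Ed d) ∘ₗ T0 ∘ₗ (e.symm : Ed d →ₗ[ℝ] (V × Vᗮ))
  have hdet : LinearMap.det T = R ^ Module.finrank ℝ V * ρ ^ Module.finrank ℝ Vᗮ := by
    rw [LinearMap.det_conj, LinearMap.det_prodMap, LinearMap.det_smul, LinearMap.det_smul]
    simp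
  have hsum : Module.finrank ℝ V + Module.finrank ℝ Vᗮ = d := by
    rw [Submodule.finrank_add_finrank_orthogonal]; simp
  have hsub : {y : Ed d | ‖y‖ ≤ R ∧ dsub V y ≤ ρ} ⊆ T '' closedBall 0 2 := by
    rintro y ⟨h1, h2⟩
    let a : V := ⟨V.starProjection y, V.starProjection_apply_mem y⟩
    let b : Vᗮ := ⟨y - V.starProjection y, Submodule.sub_starProjection_mem_orthogonal y⟩
    refine ⟨e (R⁻¹ • a, ρ⁻¹ • b), ?_, ?_⟩
    · rw [mem_closedBall_zero_iff]
      simp only [e, Submodule.coe_prodEquivOfIsCompl', Submodule.coe_smul]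
      refine (norm_add_le _ _).trans ?_
      have a1 : ‖R⁻¹ • (a : Ed d)‖ ≤ 1 := by
        rw [norm_smul, norm_inv, Real.norm_of_nonneg hR0.le, inv_mul_le_iff₀ hR0, mul_one]
        exact (Submodule.norm_starProjection_apply_le _ _).trans h1
      have a2 : ‖ρ⁻¹ • (b : Ed d)‖ ≤ 1 := by
        rw [norm_smul, norm_inv, Real.norm_of_nonneg hρ.le, inv_mul_le_iff₀ hρ, mul_one]
        exact h2
      linarith
    · simp only [T, T0, LinearMap.comp_apply, LinearEquiv.coe_coe, LinearEquiv.symm_apply_apply,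
        LinearMap.prodMap_apply, LinearMap.smul_apply, LinearMap.id_apply, smul_smul,
        mul_inv_cancel₀ hR0.ne', mul_inv_cancel₀ hρ.ne', one_smul]
      simp [e, a, b]
  refine (measure_mono hsub).trans ?_
  rw [Measure.addHaar_image_linearMap, Measure.addHaar_closedBall _ _ (by norm_num), ← mul_assoc,
    ← ENNReal.ofReal_mul (abs_nonneg _), hdet]
  gcongr
  · rw [abs_of_pos (by positivity)]
    obtain ⟨c, hc⟩ := Nat.exists_eq_add_of_le hV
    have : Module.finrank ℝ Vᗮ = c + (d - m) := by omega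
    rw [this, hc, pow_add, pow_add, mul_assoc]
    gcongr
  · norm_num
  · simp

theorem vol_l1 {ι : Type} [Fintype ι] [Nonempty ι] (R : ℝ) (hR : 0 ≤ R) :
    volume {y : ι → ℝ | ∑ i, |y i| ≤ R} =
      ENNReal.ofReal ((2 * R) ^ Fintype.card ι / (Fintype.card ι).factorial) := by
  have := volume_sum_rpow_le ι (p := 1) le_rfl R
  simp only [Real.rpow_one, div_one, Real.Gamma_nat_eq_factorial] at this
  rw [this, ← ENNReal.ofReal_pow hR, ← ENNReal.ofReal_mul (by positivity)]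
  congr 1
  rw [show (1 : ℝ) + 1 = 2 by norm_num, Real.Gamma_two]
  rw [mul_pow, mul_pow]; ring

theorem vol_ball_le (hd : 1 ≤ d) :
    volume (ball (0 : Ed d) 1) ≤ ENNReal.ofReal ((8 / √d) ^ d) := by
  haveI : Nonempty (Fin d) := ⟨⟨0, hd⟩⟩
  have hd' : (0 : ℝ) < d := by exact_mod_cast hd
  have hs : 0 < √(d : ℝ) := Real.sqrt_pos.2 hd'
  have hsub : ball (0 : Ed d) 1 ⊆ (WithLp.ofLp : Ed d → Fin d → ℝ) ⁻¹' {y | ∑ i, |y i| ≤ √d} := by
    intro y hy
    rw [mem_ball_zero_iff] at hy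
    simp only [mem_preimage, mem_setOf_eq]
    apply Real.le_sqrt_of_sq_le
    have h1 := sq_sum_le_card_mul_sum_sq (s := Finset.univ) (f := fun i => |y i|)
    simp only [Finset.card_univ, Fintype.card_fin, sq_abs] at h1
    rw [← EuclideanSpace.real_norm_sq_eq] at h1
    have : ‖y‖ ^ 2 ≤ 1 := pow_le_one₀ (norm_nonneg _) hy.le
    nlinarith
  refine (measure_mono hsub).trans ?_
  rw [(PiLp.volume_preserving_ofLp (Fin d)).measure_preimage
    (measurableSet_le (by fun_prop) measurable_const).nullMeasurableSet, vol_l1 _ hs.le]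
  apply ENNReal.ofReal_le_ofReal
  simp only [Fintype.card_fin]
  have h1 := Real.pow_div_factorial_le_exp (x := d) hd'.le d
  have h2 : Real.exp d ≤ 4 ^ d := by
    rw [← mul_one (d : ℝ), Real.exp_nat_mul]
    gcongr
    linarith [Real.exp_one_lt_d9]
  have h3 : (2 * √(d : ℝ)) = (2 / √d) * d := by
    field_simp
    rw [Real.sq_sqrt hd'.le]
  rw [h3, mul_pow, mul_div_assoc]
  calc _ ≤ (2 / √(d : ℝ)) ^ d * 4 ^ d := by gcongr; exact h1.trans h2
    _ = _ := by rw [← mul_pow]; congr 1; ring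

/-- Side length of the level `j` cubes. -/
noncomputable def side (d j : ℕ) : ℝ := (1 / 2) ^ j / √d

theorem side_pos (hd : 1 ≤ d) (j : ℕ) : 0 < side d j := by
  have hd' : (0 : ℝ) < d := by exact_mod_cast hd
  unfold side; positivity

noncomputable def idx (j : ℕ) (s : Ed d) : Fin d → ℤ := fun i => ⌊s i / side d j⌋

theorem measurable_idx (j : ℕ) : Measurable (idx (d := d) j) := by
  unfold idx
  apply measurable_pi_lambda
  intro i
  exact Int.measurable_floor.comp (by fun_prop)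

def cell (j : ℕ) (z : Fin d → ℤ) : Set (Ed d) := idx j ⁻¹' {z}

theorem measurableSet_cell (j : ℕ) (z : Fin d → ℤ) : MeasurableSet (cell j z) :=
  measurable_idx j (measurableSet_singleton z)

theorem cell_diam (hd : 1 ≤ d) {j : ℕ} {s s' : Ed d} (h : idx j s = idx j s') :
    ‖s - s'‖ ≤ (1 / 2) ^ j := by
  have hd' : (0 : ℝ) < d := by exact_mod_cast hd
  have hp := side_pos hd j
  have h1 : ∀ i, (s i - s' i) ^ 2 ≤ side d j ^ 2 := by
    intro i
    have := Int.abs_sub_lt_one_of_floor_eq_floor (congrFun h i)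
    rw [← sub_div, abs_div, abs_of_pos hp, div_lt_one hp] at this
    rw [← sq_abs]
    gcongr
  have h2 : ‖s - s'‖ ^ 2 ≤ ((1 / 2) ^ j) ^ 2 := by
    rw [EuclideanSpace.real_norm_sq_eq]
    calc ∑ i, (s - s') i ^ 2 ≤ ∑ _i : Fin d, side d j ^ 2 := Finset.sum_le_sum fun i _ => h1 i
      _ = _ := by
        simp only [Finset.sum_const, Finset.card_univ, Fintype.card_fin, nsmul_eq_mul, side]
        rw [div_pow, Real.sq_sqrt hd'.le]
        field_simp
  exact (pow_le_pow_iff_left₀ (norm_nonneg _) (by positivity) (by norm_num)).1 h2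

theorem vol_cell (hd : 1 ≤ d) (j : ℕ) (z : Fin d → ℤ) :
    volume (cell j z) = ENNReal.ofReal (side d j ^ d) := by
  have hp := side_pos hd j
  have : cell j z = (WithLp.ofLp : Ed d → Fin d → ℝ) ⁻¹'
      (Set.pi univ fun i => Ico (z i * side d j) ((z i + 1) * side d j)) := by
    ext s
    simp only [cell, mem_preimage, mem_singleton_iff, mem_pi, mem_univ, true_imp_iff, mem_Ico,
      funext_iff, idx, Int.floor_eq_iff, le_div_iff₀ hp, div_lt_iff₀ hp]
  rw [this, (PiLp.volume_preserving_ofLp (Fin d)).measure_preimage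
    (MeasurableSet.univ_pi fun _ => measurableSet_Ico).nullMeasurableSet, Real.volume_pi_Ico]
  simp only [add_mul, one_mul, add_sub_cancel_left, Finset.prod_const, Finset.card_univ,
    Fintype.card_fin]
  rw [ENNReal.ofReal_pow hp.le]

theorem cover_bound (hd : 1 ≤ d) (μ : Measure (Ed d)) (j : ℕ) (φ : ℝ≥0∞)
    (hφ : ∀ z, μ (cell j z) ≤ φ) (S S' : Set (Ed d))
    (hS : ∀ s ∈ S, ∀ y, ‖y - s‖ ≤ (1 / 2) ^ j → y ∈ S') :
    μ S * ENNReal.ofReal (side d j ^ d) ≤ φ * volume S' := by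
  have hc : (idx j '' S).Countable := Set.to_countable _
  have h1 : S ⊆ ⋃ z ∈ idx j '' S, cell j z := fun s hs => mem_biUnion (mem_image_of_mem _ hs) rfl
  have h2 : (⋃ z ∈ idx j '' S, cell j z) ⊆ S' := by
    intro y hy
    simp only [mem_iUnion] at hy
    obtain ⟨z, ⟨s, hs, rfl⟩, hy⟩ := hy
    exact hS s hs y (cell_diam hd hy)
  have hdis : (idx j '' S).PairwiseDisjoint (cell j) := by
    intro a _ b _ hab
    exact Disjoint.preimage _ (disjoint_singleton.2 hab)
  calc μ S * ENNReal.ofReal (side d j ^ d)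
      ≤ (∑' z : idx j '' S, μ (cell j z)) * ENNReal.ofReal (side d j ^ d) := by
        gcongr
        exact (measure_mono h1).trans (measure_biUnion_le μ hc _)
    _ ≤ ∑' z : idx j '' S, φ * volume (cell j (z : Fin d → ℤ)) := by
        rw [← ENNReal.tsum_mul_right]
        apply ENNReal.tsum_le_tsum
        intro z
        rw [vol_cell hd]
        gcongr
        exact hφ z
    _ = φ * volume (⋃ z ∈ idx j '' S, cell j z) := by
        rw [ENNReal.tsum_mul_left, measure_biUnion hc hdis fun z _ => measurableSet_cell j z]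
    _ ≤ _ := by gcongr

theorem slab_mass (hd : 1 ≤ d) (μ : Measure (Ed d)) (j i : ℕ) (φ : ℝ≥0∞)
    (hφ : ∀ z, μ (cell (j + i) z) ≤ φ) (V : Submodule ℝ (Ed d)) {m : ℕ}
    (hV : Module.finrank ℝ V ≤ m) (hm : m ≤ d) (c : Ed d) :
    μ {s | ‖s - c‖ ≤ (1 / 2) ^ j ∧ dsub V (s - c) ≤ (1 / 2) ^ (j + i)} ≤
      φ * 2 ^ (5 * d + i * m) := by
  have hd' : (0 : ℝ) < d := by exact_mod_cast hd
  have hs : 0 < √(d : ℝ) := Real.sqrt_pos.2 hd'
  have hle : (1 / 2 : ℝ) ^ (j + i) ≤ (1 / 2) ^ j :=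
    pow_le_pow_of_le_one (by norm_num) (by norm_num) (by omega)
  have h1 := cover_bound hd μ (j + i) φ hφ
    {s | ‖s - c‖ ≤ (1 / 2) ^ j ∧ dsub V (s - c) ≤ (1 / 2) ^ (j + i)}
    ((fun y => y - c) ⁻¹' {y | ‖y‖ ≤ 2 * (1 / 2) ^ j ∧ dsub V y ≤ 2 * (1 / 2) ^ (j + i)})
    (by
      rintro s ⟨h1, h2⟩ y hy
      have e : y - c = (s - c) + (y - s) := by abel
      simp only [mem_preimage, mem_setOf_eq]
      rw [e]
      constructor
      · linarith [norm_add_le (s - c) (y - s)]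
      · linarith [dsub_add_le V (s - c) (y - s)])
  simp only [sub_eq_add_neg _ c] at h1
  rw [measure_preimage_add_right] at h1
  simp only [← sub_eq_add_neg] at h1
  have h2 := vol_slab V hV hm (R := 2 * (1 / 2) ^ j) (ρ := 2 * (1 / 2) ^ (j + i)) (by positivity)
    (by linarith)
  have h3 := vol_ball_le hd
  have h4 : volume {y : Ed d | ‖y‖ ≤ 2 * (1 / 2) ^ j ∧ dsub V y ≤ 2 * (1 / 2) ^ (j + i)} ≤
      2 ^ (5 * d + i * m) * ENNReal.ofReal (side d (j + i) ^ d) := by
    refine h2.trans ((mul_le_mul_right h3 _).trans (le_of_eq ?_))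
    rw [← ENNReal.ofReal_mul (by positivity), ← ENNReal.ofReal_ofNat 2,
      ← ENNReal.ofReal_pow (by norm_num), ← ENNReal.ofReal_mul (by positivity)]
    congr 1
    obtain ⟨e, rfl⟩ := Nat.exists_eq_add_of_le hm
    simp only [side, Nat.add_sub_cancel_left, div_pow, mul_pow, pow_add, one_pow, pow_mul]
    field_simp
    rw [show (8 : ℝ) = 2 * 2 * 2 by norm_num, show (2 : ℝ) ^ 5 = 2 * 2 * 2 * 2 * 2 by norm_num]
    simp only [mul_pow]
    ring
  have h5 : μ {s | ‖s - c‖ ≤ (1 / 2) ^ j ∧ dsub V (s - c) ≤ (1 / 2) ^ (j + i)} *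
      ENNReal.ofReal (side d (j + i) ^ d) ≤ φ * 2 ^ (5 * d + i * m) *
      ENNReal.ofReal (side d (j + i) ^ d) := by
    rw [mul_assoc]
    exact h1.trans (mul_le_mul_right h4 _)
  exact (ENNReal.mul_le_mul_iff_left (by simp [pow_pos (side_pos hd _)]) ENNReal.ofReal_ne_top).1 h5

/-- Uniform probability measure on the unit sphere. -/
noncomputable def sph (d : ℕ) : Measure (sphere (0 : Ed d) 1) :=
  ((volume : Measure (Ed d)).toSphere univ)⁻¹ • (volume : Measure (Ed d)).toSphere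

theorem sph_prob (hd : 1 ≤ d) : IsProbabilityMeasure (sph d) := by
  haveI : Nonempty (Fin d) := ⟨⟨0, hd⟩⟩
  constructor
  unfold sph
  rw [Measure.smul_apply, smul_eq_mul, ENNReal.inv_mul_cancel]
  · exact Measure.measure_univ_ne_zero.2 (Measure.toSphere_ne_zero (volume : Measure (Ed d)))
  · exact measure_ne_top _ _

noncomputable def sig (d : ℕ) : Measure (Ed d) := (sph d).map Subtype.val

theorem sig_ball (hd : 2 ≤ d) (c : Ed d) (ρ : ℝ) (hρ : 0 < ρ) :
    sig d (closedBall c ρ) ≤ ENNReal.ofReal ((8 * ρ) ^ (d - 1)) := by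
  haveI := sph_prob (d := d) (by omega)
  unfold sig
  rw [Measure.map_apply measurable_subtype_coe measurableSet_closedBall]
  by_cases hρ1 : 1 ≤ 2 * ρ
  · refine prob_le_one.trans ?_
    rw [← ENNReal.ofReal_one]
    exact ENNReal.ofReal_le_ofReal (one_le_pow₀ (by linarith))
  rcases (Subtype.val ⁻¹' closedBall c ρ : Set (sphere (0 : Ed d) 1)).eq_empty_or_nonempty with h | h
  · rw [h]; simp
  obtain ⟨c', hc'⟩ := h
  have hms : MeasurableSet (Subtype.val ⁻¹' closedBall c ρ : Set (sphere (0 : Ed d) 1)) :=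
    measurable_subtype_coe measurableSet_closedBall
  unfold sph
  rw [Measure.smul_apply, smul_eq_mul, Measure.toSphere_apply' _ hms, Measure.toSphere_apply_univ]
  have hsub : (Ioo (0 : ℝ) 1 • ((↑) '' (Subtype.val ⁻¹' closedBall c ρ :
      Set (sphere (0 : Ed d) 1)) : Set (Ed d))) ⊆
      {y : Ed d | ‖y‖ ≤ 1 ∧ dsub (Submodule.span ℝ {(c' : Ed d)}) y ≤ 2 * ρ} := by
    rintro y ⟨t, ⟨ht0, ht1⟩, u, ⟨u', hu', rfl⟩, rfl⟩
    have hn : ‖(u' : Ed d)‖ = 1 := by simp
    constructor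
    · simp only [norm_smul, hn, Real.norm_of_nonneg ht0.le]; linarith
    · have e : t • (u' : Ed d) = t • (c' : Ed d) + t • ((u' : Ed d) - c') := by
        rw [smul_sub]; abel
      simp only
      rw [e]
      refine (dsub_add_le _ _ _).trans ?_
      rw [dsub_mem _ (Submodule.smul_mem _ _ (Submodule.mem_span_singleton_self _)), zero_add,
        norm_smul, Real.norm_of_nonneg ht0.le]
      have a1 : ‖(u' : Ed d) - c'‖ ≤ 2 * ρ := by
        rw [mem_preimage, mem_closedBall, dist_eq_norm] at hu' hc'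
        have : (u' : Ed d) - c' = (u' - c) - (c' - c) := by abel
        rw [this]
        linarith [norm_sub_le ((u' : Ed d) - c) (c' - c)]
      nlinarith [norm_nonneg ((u' : Ed d) - c')]
  have h2 := vol_slab (Submodule.span ℝ {(c' : Ed d)}) (m := 1)
    ((finrank_span_le_card _).trans (by simp)) (by omega) (R := 1) (ρ := 2 * ρ) (by positivity)
    (by linarith)
  have hB0 : volume (ball (0 : Ed d) 1) ≠ 0 := (measure_ball_pos _ _ one_pos).ne'
  have hB1 : volume (ball (0 : Ed d) 1) ≠ ⊤ := measure_ball_lt_top.ne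
  have hd0 : ((Module.finrank ℝ (Ed d) : ℕ) : ℝ≥0∞) ≠ 0 := by simp; omega
  calc _ ≤ ((Module.finrank ℝ (Ed d) : ℝ≥0∞) * volume (ball (0 : Ed d) 1))⁻¹ *
        (Module.finrank ℝ (Ed d) * (ENNReal.ofReal (1 ^ 1 * (2 * ρ) ^ (d - 1) * 2 ^ d) *
          volume (ball (0 : Ed d) 1))) := by
        gcongr
        exact (measure_mono hsub).trans h2
    _ = ENNReal.ofReal (1 ^ 1 * (2 * ρ) ^ (d - 1) * 2 ^ d) := by
        rw [mul_left_comm (Module.finrank ℝ (Ed d) : ℝ≥0∞), mul_left_comm,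
          ENNReal.inv_mul_cancel (mul_ne_zero hd0 hB0) (ENNReal.mul_ne_top (by simp) hB1), mul_one]
    _ ≤ _ := by
        apply ENNReal.ofReal_le_ofReal
        have : (2 : ℝ) ^ d ≤ 4 ^ (d - 1) := by
          rw [show (4 : ℝ) = 2 ^ 2 by norm_num, ← pow_mul]
          exact pow_le_pow_right₀ (by norm_num) (by omega)
        calc _ ≤ 1 ^ 1 * (2 * ρ) ^ (d - 1) * 4 ^ (d - 1) := by gcongr
          _ = _ := by rw [one_pow, one_mul, ← mul_pow]; congr 1; ring

theorem sig_cell (hd : 2 ≤ d) (j : ℕ) (z : Fin d → ℤ) :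
    sig d (cell j z) * 2 ^ (j * (d - 1)) ≤ 2 ^ (3 * (d - 1)) := by
  rcases (cell j z).eq_empty_or_nonempty with h | ⟨c, hc⟩
  · rw [h]; simp
  have hsub : cell j z ⊆ closedBall c ((1 / 2) ^ j) := by
    intro s hs
    rw [mem_closedBall, dist_eq_norm]
    exact cell_diam (by omega) (hs.trans hc.symm)
  refine (mul_le_mul_left ((measure_mono hsub).trans (sig_ball hd c _ (by positivity))) _).trans
    (le_of_eq ?_)
  rw [← ENNReal.ofReal_ofNat 2, ← ENNReal.ofReal_pow (by norm_num),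
    ← ENNReal.ofReal_pow (by norm_num), ← ENNReal.ofReal_mul (by positivity)]
  congr 1
  rw [pow_mul, pow_mul, ← mul_pow]
  congr 1
  rw [mul_assoc, ← mul_pow]; norm_num

end Vale.Agent.P309
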